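import Vale.Agent.P086.Mac

/-! Capturing one generator. -/

namespace Vale.Agent.P086

open scoped ComplexConjugate InnerProductSpace BigOperators Nat
open Filter Topology Vale.Agent.P085 Finset
open FreeGroup (of)

variable {A : Type*} [CStarAlgebra A] [TrA A]

lemma ineq {N : StarSubalgebra ℂ A} {w w' g p : A} (hw : w ∈ unitary A) (hw' : w' ∈ unitary A)
    (hg : g ∈ unitary A) (hwN : w ∈ N) (hp : p ∈ N) (F0 : ∀ n ∈ N, tr (g * n) = 0)
    (F1 : ∀ a ∈ N, ∀ b ∈ N, tr (g * a * g * b) = 0)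
    (F2 : ∀ a ∈ N, ∀ b ∈ N, tr (g * a * star g * b) = tr a * tr b)
    (hA : tr (star p * w') = tr (star p * w) * tr (star w * w'))
    (hP : tr (star p * (w - p)) = 0) {t : ℝ} (ht : 0 < t) (ht1 : t ≤ 1)
    (hE : n2 (w' - w - t • (g - w * star g * w)) ≤ 25 * t ^ 2) :
    n2 (w - p) ^ 2 ≤ 1 ∧ n2 (w' - (p + t • (g - p * star g * p))) ^ 2 ≤
      n2 (w - p) ^ 2 - t ^ 2 * (n2 (w - p) ^ 2) ^ 2 + 800 * t ^ 3 := by
  have u1 : ∀ {u : A}, u ∈ unitary A → n2 u = 1 := fun hu => by simpa using n2_mul_unitary hu 1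
  have h1 : tr (star p * w) = (n2 p ^ 2 : ℝ) := by
    rwa [mul_sub, map_sub, sub_eq_zero, tr_star_mul_self] at hP
  have h2 : n2 (w - p) ^ 2 = 1 - n2 p ^ 2 := by
    rw [n2_sub_comm, n2_sub_sq, h1, u1 hw, Complex.ofReal_re]; ring
  have h3 : ∀ a ∈ N, ∀ n ∈ N, tr (star (g - a * star g * a) * n) = 0 := fun a ha n hn => by
    have := congrArg conj (F0 _ (star_mem hn))
    rw [← tr_star, star_mul, star_star, tr_comm, map_zero] at this
    simp only [star_sub, star_mul, star_star, sub_mul, map_sub, this, mul_assoc]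
    rw [tr_comm, mul_assoc, F0 _ (mul_mem (mul_mem (star_mem ha) hn) (star_mem ha)), sub_zero]
  have h4 : ∀ a ∈ N, ∀ b ∈ N, tr (star (g - a * star g * a) * (g - b * star g * b)) =
      1 + tr (star a * b) ^ 2 := fun a ha b hb => by
    have e1 := congrArg conj (F1 _ (star_mem hb) _ (star_mem hb))
    rw [← tr_star, map_zero] at e1
    have e2 := F1 _ (star_mem ha) _ (star_mem ha)
    have e3 := F2 _ (mul_mem (star_mem ha) hb) _ (mul_mem hb (star_mem ha))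
    simp only [star_sub, star_mul, star_star, sub_mul, mul_sub, map_sub, mul_assoc, hg.1,
      tr_one] at *
    rw [tr_comm (star a) (g * (star a * g)), tr_comm (star a) (g * _), ← tr_comm _ (star g)]
    simp only [mul_assoc]
    rw [e1, e2, e3, tr_comm b]; ring
  set c := n2 p ^ 2 with hc
  have c0 : 0 ≤ c := sq_nonneg _
  have c1 : c ≤ 1 := by linarith [sq_nonneg (n2 (w - p))]
  have v1 : n2 (g - w * star g * w) ^ 2 = 2 := by
    rw [n2_sq, h4 w hwN w hwN, hw.1, tr_one]; norm_num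
  have v2 : n2 (g - p * star g * p) ^ 2 = 1 + c ^ 2 := by
    rw [n2_sq, h4 p hp p hp, tr_star_mul_self, ← Complex.ofReal_pow, Complex.add_re,
      Complex.ofReal_re, Complex.one_re]
  set e := w' - w - t • (g - w * star g * w) with he
  have k1 : n2 (w' - w) ≤ t * n2 (g - w * star g * w) + 25 * t ^ 2 := by
    rw [show w' - w = t • (g - w * star g * w) + e by rw [he]; abel]
    refine (n2_add_le _ _).trans ?_
    rw [n2_rsmul, abs_of_pos ht]; linarith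
  have k2 : 1 - t ^ 2 - 350 * t ^ 3 ≤ (tr (star w * w')).re := by
    have a1 := n2_sub_sq w w'
    rw [u1 hw, u1 hw', n2_sub_comm] at a1
    have a2 := pow_le_pow_left₀ (n2_nonneg _) k1 2
    have a3 : n2 (g - w * star g * w) ≤ 3 / 2 := le_of_sq_le_sq (by rw [v1]; norm_num) (by norm_num)
    have a4 : t ^ 4 ≤ t ^ 3 := pow_le_pow_of_le_one ht.le ht1 (by norm_num)
    rw [add_sq, mul_pow, v1] at a2
    nlinarith [mul_le_mul_of_nonneg_left a3 (pow_pos ht 3).le]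
  have k3 : t * (1 + c ^ 2) - 50 * t ^ 2 ≤ (tr (star (g - p * star g * p) * w')).re := by
    rw [show w' = w + t • (g - w * star g * w) + e by rw [he]; abel, mul_add (star _),
      mul_add (star _), map_add, map_add, h3 p hp w hwN, mul_smul_comm, tr_rsmul, h4 p hp w hwN, h1]
    have a1 := (abs_le.1 ((Complex.abs_re_le_norm _).trans (cs_star (g - p * star g * p) e))).1
    have a2 : n2 (g - p * star g * p) ≤ 2 := le_of_sq_le_sq (by rw [v2]; nlinarith) zero_le_two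
    have a3 := mul_le_mul a2 hE (n2_nonneg _) zero_le_two
    simp only [zero_add, Complex.add_re, ← Complex.ofReal_pow, Complex.re_ofReal_mul,
      Complex.one_re, Complex.ofReal_re]
    linarith
  have k4 : (tr (star p * t • (g - p * star g * p))).re = 0 := by
    have := congrArg conj (h3 p hp p hp)
    rw [← tr_star, star_mul, star_star, map_zero] at this
    rw [mul_smul_comm, tr_rsmul, this, mul_zero, Complex.zero_re]
  refine ⟨by linarith, ?_⟩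
  rw [n2_sub_comm, n2_sub_sq, n2_add_sq, k4, n2_rsmul, mul_pow, v2, sq_abs, u1 hw', star_add,
    add_mul, map_add, hA, h1, star_smul, smul_mul_assoc, star_trivial t, tr_rsmul, Complex.add_re,
    Complex.re_ofReal_mul, Complex.re_ofReal_mul, h2]
  nlinarith [mul_le_mul_of_nonneg_left k2 c0, mul_le_mul_of_nonneg_left k3 ht.le,
    mul_le_mul_of_nonneg_left c1 (pow_pos ht 3).le]

lemma tr_free {G : Type*} [Group G] {ρ : Rep G A} (hρ : ρ.Free) {a g g' : G}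
    (h : a * g * a⁻¹ * g' = 1 → g = 1) :
    tr (ρ.π a * ρ.π g * ρ.π a⁻¹ * ρ.π g') = 1 * tr (ρ.π g) * tr (ρ.π g') := by
  simp only [← map_mul]
  by_cases e : g = 1
  · simp [e, tr_one]
  · rw [hρ _ (mt h e), hρ g e]; simp

lemma num_step {θ t e e' : ℝ} {n : ℕ} (h0 : 0 < θ) (h1 : θ ≤ 1) (ht : t = θ ^ 2 / 1800)
    (he : e ≤ max θ (1 - n * (t ^ 2 * θ ^ 2 / 2))) (h : e' ≤ e - t ^ 2 * e ^ 2 + 900 * t ^ 3) :
    e' ≤ max θ (1 - (n + 1 : ℕ) * (t ^ 2 * θ ^ 2 / 2)) := by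
  have a1 : 900 * t ^ 3 = t ^ 2 * θ ^ 2 / 2 := by rw [ht]; ring
  have a2 : 0 ≤ t := by rw [ht]; positivity
  have a3 : t ≤ 1 / 2 := by nlinarith
  have a4 : t ^ 2 ≤ 1 / 4 := by nlinarith
  rw [a1] at h
  rcases le_total e θ with h2 | h2
  · refine le_max_of_le_left ?_
    nlinarith [mul_nonneg (sub_nonneg.2 h2) (show 0 ≤ 1 - t ^ 2 * (e + θ) by nlinarith),
      mul_nonneg (sq_nonneg t) (sq_nonneg θ)]
  · have := mul_le_mul_of_nonneg_left (pow_le_pow_left₀ h0.le h2 2) (sq_nonneg t)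
    rcases le_max_iff.1 he with h3 | h3
    · exact le_max_of_le_left (by nlinarith [mul_nonneg (sq_nonneg t) (sq_nonneg θ)])
    · refine le_max_of_le_right ?_
      push_cast
      linarith

variable {Λ : Type*} {x w : Λ} (E : Emb x w)

lemma Emb.map_low {J : ℕ} (hJ : 2 ≤ J) : (sub {t | t < J}).map E.ι =
    Emb.HT x w (E.ι '' (of '' {t | 2 ≤ t ∧ t < J})) := by
  refine le_antisymm (Subgroup.map_le_iff_le_comap.2 (sub_le fun t ht => Subgroup.subset_closure ?_))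
    ((Subgroup.closure_le _).2 ?_)
  · rcases t with _ | _ | t
    · exact .inl E.h0
    · exact .inr (.inl E.h1)
    · exact .inr (.inr ⟨_, ⟨_, ⟨by omega, ht⟩, rfl⟩, rfl⟩)
  · rintro _ (rfl | rfl | ⟨_, ⟨t, ht, rfl⟩, rfl⟩)
    · exact ⟨_, of_mem (show 0 < J by omega), E.h0⟩
    · exact ⟨_, of_mem (show 1 < J by omega), E.h1⟩
    · exact ⟨_, of_mem ht.2, rfl⟩

lemma PG_lip {σ σ' : Rep (FreeGroup ℕ) A} {J : ℕ} (hJ : 2 ≤ J)
    (h : ∀ j, 2 ≤ j → σ.π (of j) = σ'.π (of j)) (l : ℕ) :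
    n2 (σ.π (PG J l) - σ'.π (PG J l)) ≤ l * n2 (σ.π (of 0) - σ'.π (of 0)) := by
  induction l with
  | zero => simp [PG, h J hJ]
  | succ l ih =>
    simp only [PG, map_mul, h _ (show 2 ≤ J + (l + 1) by omega), ← sub_mul,
      n2_mul_unitary (σ'.uni _)]
    refine (n2_triangle _ (σ'.π (PG J l) * σ.π (of 0)) _).trans ?_
    rw [← sub_mul, ← mul_sub, n2_mul_unitary (σ.uni _), n2_unitary_mul (σ'.uni _)]
    push_cast
    linarith

lemma Emb.cap [Cmp A] {θ : ℝ} (h0 : 0 < θ) (h1 : θ ≤ 1) (n : ℕ) : ∀ η : ℝ, 0 < η → ∃ J, 2 ≤ J ∧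
    ∀ ρ : Rep (FreeGroup Λ) A, ρ.Free → ∃ ρ' : Rep (FreeGroup Λ) A, ρ'.Free ∧
      (∀ T ⊆ (sub {s | s ≠ x ∧ s ≠ w} : Set (FreeGroup Λ)), (∀ j, 2 ≤ j → j < J → E.ι (of j) ∈ T) →
        ρ'.cl (Emb.HT x w T) = ρ.cl (Emb.HT x w T)) ∧
      (∀ g ∈ sub {s | s ≠ x ∧ s ≠ w}, ρ'.π g = ρ.π g) ∧ n2 (ρ'.π (of x) - ρ.π (of x)) ≤ η ∧
      ∃ p ∈ (ρ'.comp E.ι).cl (sub {t | t < J ∧ t ≠ 1}), n2 (ρ.π (of w) - p) ^ 2 ≤
        max θ (1 - n * ((θ ^ 2 / 1800) ^ 2 * θ ^ 2 / 2)) := by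
  induction n with
  | zero => exact fun η hη => ⟨2, le_rfl, fun ρ hρ => ⟨ρ, hρ, fun _ _ _ => rfl, fun _ _ => rfl,
      by simp [hη.le], 0, zero_mem _, by simp [Rep.n2_eq]⟩⟩
  | succ n ih =>
  intro η hη
  set t := θ ^ 2 / 1800 with htd
  have ht : 0 < t := by positivity
  have ht1 : t ≤ 1 / 10 := by nlinarith
  obtain ⟨L, hL⟩ := exists_nat_gt ((8 * t / η) ^ 2)
  have hL' : (0 : ℝ) < L := lt_of_le_of_lt (sq_nonneg _) hL
  have hL0 : 0 < L := by exact_mod_cast hL'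
  obtain ⟨J, hJ, ih⟩ := ih (min (η / 2) (t ^ 2 / L)) (by positivity)
  refine ⟨J + L + 1, by omega, fun ρ hρ => ?_⟩
  obtain ⟨ρ₁, a1, a2, a3, a4, a5, a6⟩ := E.mac hJ hL0 ht
    (show 0 < min (η / 4) (t ^ 2) by positivity) hρ
  obtain ⟨ρ₀, b1, b2, b3, b4, q, hq, b5⟩ := ih ρ₁ a1
  refine ⟨ρ₀, b1, fun T hT h => (b2 T hT fun j h1 h2 => h j h1 (by omega)).trans
    (a2 T hT fun j h1 h2 => h j h1 (by omega)), fun g hg => (b3 g hg).trans (a3 g hg), ?_, ?_⟩
  · have : t * (2 / √L) ≤ η / 4 := by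
      have := Real.le_sqrt_of_sq_le hL.le
      rw [div_le_iff₀ hη] at this
      rw [mul_div_assoc', div_le_iff₀ (Real.sqrt_pos.2 hL')]
      linarith
    linarith [n2_triangle (ρ₀.π (of x)) (ρ₁.π (of x)) (ρ.π (of x)), min_le_left (η / 4) (t ^ 2),
      min_le_left (η / 2) (t ^ 2 / L)]
  obtain ⟨p, c1, c2, c3⟩ := condexp ((ρ₀.comp E.ι).cl_closed (sub {t | t < J ∧ t ≠ 1}))
    (ρ₁.π (of w))
  set σ := ρ₁.comp E.ι with hσ
  have fσ : σ.Free := a1.comp E.inj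
  have d1 : p ∈ σ.cl (sub {t | t < J}) := by
    rw [← Rep.cl_map, E.map_low hJ, ← b2 (E.ι '' (of '' {t | 2 ≤ t ∧ t < J})) (by rintro _ ⟨_, ⟨s, hs, rfl⟩, rfl⟩; exact E.h2 s hs.1)
      fun j h1 h2 => ⟨_, ⟨j, ⟨h1, h2⟩, rfl⟩, rfl⟩, ← E.map_low hJ, Rep.cl_map]
    exact Rep.cl_mono _ (sub_mono fun _ h => h.1) c1
  have d2 : ρ₁.π (of w) ∈ σ.cl (sub {t | t < J}) :=
    E.h1 ▸ σ.mem_cl (of_mem (show 1 < J by omega))
  have dg : ∀ a ∈ sub {t | t < J}, deg J (PG J L * a) = .ofAdd 1 := fun a ha => by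
    simpa [deg_sub (low_le le_rfl ha)] using deg_PG hJ 0 L
  have d3 : tr (star p * ρ.π (of w)) =
      tr (star p * ρ₁.π (of w)) * tr (star (ρ₁.π (of w)) * ρ.π (of w)) := by
    have m : wb J L ∈ inn J L := Subgroup.subset_closure (.inl rfl)
    have := fun n hn => σ.cl_bil (fun g hg g' hg' => tr_free fσ (inn_free hJ hL0 hg hg'))
      (mul_mem (star_mem (σ.mem_cl m)) (a4 ▸ (ρ.comp E.ι).mem_cl m)) (z := n) hn
    have e : σ.π (of (J + L))⁻¹ * (star (σ.π (wb J L)) * (ρ.comp E.ι).π (wb J L)) *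
        σ.π (of (J + L))⁻¹⁻¹ = star (ρ₁.π (of w)) * ρ.π (of w) := by
      simp only [hσ, Rep.comp_π, wb, map_mul E.ι, map_inv, E.h1, ρ₁.st, map_mul ρ.π,
        ← a3 _ (inv_mem (E.h2 J hJ)), ← a3 _ (inv_mem (E.h2 (J + L) (by omega))), ← mul_assoc,
        ← map_mul ρ₁.π]
      simp [mul_assoc, ← map_mul]
    rw [e] at this
    have e1 := this 1 (one_mem _)
    have e2 := this _ (mul_mem (star_mem d1) d2)
    rw [mul_one, tr_one, mul_one] at e1
    rw [← e1, tr_comm, mul_assoc, ← mul_assoc (ρ₁.π _), (ρ₁.uni _).2, one_mul] at e2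
    rw [e2, mul_comm]
  obtain ⟨k1, k2⟩ := ineq (ρ₁.uni _) (ρ.uni _) (σ.uni (PG J L)) d2 d1
    (fun n hn => (σ.cl_lin (c := 0) (fun a ha => by
      rw [← map_mul, zero_mul]
      exact fσ _ fun e => by have := dg a ha; rw [e, map_one] at this; cases this) hn).trans (zero_mul _))
    (fun a ha b hb => (σ.cl_bil (c := 0) (fun a ha b hb => by
      rw [mul_assoc, ← map_mul, ← map_mul, ← map_mul, zero_mul, zero_mul]
      refine fσ _ fun e => ?_
      have := congrArg (deg J) e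
      rw [map_mul, dg a ha, dg b hb] at this
      cases this) ha hb).trans (by simp))
    (fun a ha b hb => by
      rw [σ.st, σ.cl_bil (fun g hg g' hg' => tr_free fσ (PG_free hJ hg hg')) ha hb, one_mul])
    d3 (c3 _ (star_mem c1)) ht (by linarith)
    (a6.trans (by linarith [min_le_right (η / 4) (t ^ 2)]))
  have m1 := Rep.cl_mono _ (sub_mono (T' := {t | t < J + L + 1 ∧ t ≠ 1})
    fun s hs => ⟨by have := hs.1; omega, hs.2⟩) c1
  have m2 := (ρ₀.comp E.ι).mem_cl (PG_mem' (H := sub {t | t < J + L + 1 ∧ t ≠ 1}) (J := J) (l := L)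
    (of_mem ⟨by omega, zero_ne_one⟩) fun i hi => of_mem ⟨by omega, by omega⟩)
  have m3 := SMulMemClass.smul_mem (t : ℂ) (sub_mem m2 (mul_mem (mul_mem m1 (star_mem m2)) m1))
  rw [Complex.coe_smul] at m3
  refine ⟨_, add_mem m1 m3,
    num_step h0 h1 htd
      ((pow_le_pow_left₀ (n2_nonneg _) (orth_le c1 hq c3) 2).trans b5) ?_⟩
  have l1 : n2 (σ.π (PG J L) - (ρ₀.comp E.ι).π (PG J L)) ≤ t ^ 2 := by
    refine (PG_lip hJ (fun j hj => (b3 _ (E.h2 j hj)).symm) L).trans ?_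
    rw [← le_div_iff₀' hL', n2_sub_comm, hσ, Rep.comp_π, Rep.comp_π, E.h0]
    exact b4.trans (min_le_right _ _)
  set g := σ.π (PG J L)
  set g' := (ρ₀.comp E.ι).π (PG J L)
  have l2 : ‖p‖ ≤ 4 := by linarith [ρ₁.norm_le (of w)]
  have l3 : n2 (p * star (g - g') * p) ≤ 4 * t ^ 2 * 4 := (n2_mul_le' _ _).trans (mul_le_mul
    ((n2_mul_le _ _).trans (mul_le_mul l2 (by rwa [n2_star]) (n2_nonneg _) (by norm_num))) l2
    (norm_nonneg _) (by positivity))
  have l4 := n2_add_le (ρ.π (of w) - (p + t • (g - p * star g * p)))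
    (t • ((g - g') - p * star (g - g') * p))
  rw [show ρ.π (of w) - (p + t • (g - p * star g * p)) + t • ((g - g') - p * star (g - g') * p) =
    ρ.π (of w) - (p + t • (g' - p * star g' * p)) by
      simp only [star_sub, mul_sub, sub_mul]; module, n2_rsmul, abs_of_pos ht] at l4
  have l5 := mul_le_mul_of_nonneg_left ((n2_sub_le _ _).trans (add_le_add l1 l3)) ht.le
  have l6 := pow_le_pow_left₀ (n2_nonneg _) (l4.trans (add_le_add le_rfl l5)) 2
  have l7 : t ^ 3 ≤ 1 / 1000 := (pow_le_pow_left₀ ht.le ht1 3).trans (by norm_num)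
  have l8 : n2 (ρ.π (of w) - (p + t • (g - p * star g * p))) ≤ 2 :=
    le_of_sq_le_sq (by nlinarith [mul_nonneg (sq_nonneg t) (sq_nonneg (n2 (ρ₁.π (of w) - p) ^ 2))])
      zero_le_two
  nlinarith [mul_le_mul_of_nonneg_left l8 (pow_pos ht 3).le, mul_le_mul_of_nonneg_left l7 (pow_pos ht 3).le]

end Vale.Agent.P086
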