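import Mathlib

/-! Derivations of real group algebras. -/

namespace Vale.Agent.P086

open scoped BigOperators Nat
open Finset

/-- real group algebra -/
abbrev RG (G : Type*) := MonoidAlgebra ℝ G

variable {G : Type*} [Group G]

/-- basis elements -/
noncomputable def oo : G →* RG G := MonoidAlgebra.of ℝ G

lemma oo_def (g : G) : oo g = MonoidAlgebra.single g (1 : ℝ) := rfl

lemma ind {p : RG G → Prop} (f : RG G) (h1 : ∀ g, p (oo g)) (h2 : ∀ x y, p x → p y → p (x + y))
    (h3 : ∀ (r : ℝ) x, p x → p (r • x)) : p f :=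
  MonoidAlgebra.induction_on f h1 h2 h3

lemma oo_inv_mul (g : G) : oo g⁻¹ * oo g = 1 := by rw [← map_mul, inv_mul_cancel, map_one]
lemma oo_mul_inv (g : G) : oo g * oo g⁻¹ = 1 := by rw [← map_mul, mul_inv_cancel, map_one]

/-- antipode -/
noncomputable def rev : RG G →ₗ[ℝ] RG G := MonoidAlgebra.mapDomainLinearMap ℝ ℝ (·⁻¹)

@[simp] lemma rev_oo (g : G) : rev (oo g) = oo g⁻¹ := by simp [rev, oo_def]

lemma rev_mul (f g : RG G) : rev (f * g) = rev g * rev f := by
  induction f using ind with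
  | h1 a =>
    induction g using ind with
    | h1 b => rw [← map_mul, rev_oo, rev_oo, rev_oo, mul_inv_rev, map_mul]
    | h2 x y hx hy => simp [mul_add, add_mul, hx, hy]
    | h3 r x hx => simp [hx]
  | h2 x y hx hy => simp [mul_add, add_mul, hx, hy]
  | h3 r x hx => simp [hx]

/-- canonical trace -/
noncomputable def t0 : RG G →ₗ[ℝ] ℝ := Finsupp.lapply 1 ∘ₗ (MonoidAlgebra.coeffLinearEquiv ℝ).toLinearMap

lemma t0_oo [DecidableEq G] (g : G) : t0 (oo g) = if g = 1 then 1 else 0 := by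
  simp [t0, oo_def, Finsupp.single_apply]

lemma t0_ne {g : G} (h : g ≠ 1) : t0 (oo g) = 0 := by classical rw [t0_oo, if_neg h]

@[simp] lemma t0_one : t0 (1 : RG G) = 1 := by classical rw [← map_one oo, t0_oo, if_pos rfl]

lemma t0_comm (f g : RG G) : t0 (f * g) = t0 (g * f) := by
  classical
  induction f using ind with
  | h1 a =>
    induction g using ind with
    | h1 b => simp only [← map_mul, t0_oo, mul_eq_one_comm (a := a)]
    | h2 x y hx hy => simp [mul_add, add_mul, hx, hy]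
    | h3 r x hx => simp [hx]
  | h2 x y hx hy => simp [mul_add, add_mul, hx, hy]
  | h3 r x hx => simp [hx]

lemma t0_rev (f : RG G) : t0 (rev f) = t0 f := by
  classical
  induction f using ind with
  | h1 a => simp [t0_oo]
  | h2 x y hx hy => simp [hx, hy]
  | h3 r x hx => simp [hx]

/-- weighted sum norm -/
noncomputable def wn (w : G → ℝ) (hw : ∀ g, 0 ≤ w g) : Seminorm ℝ (RG G) :=
  Seminorm.of (fun f => f.coeff.sum fun g a => |a| * w g) (fun f g => by
    classical
    have e : ∀ x : G →₀ ℝ, x.support ⊆ f.coeff.support ∪ g.coeff.support →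
        (x.sum fun g a => |a| * w g) = ∑ k ∈ f.coeff.support ∪ g.coeff.support, |x k| * w k :=
      fun x hx => Finsupp.sum_of_support_subset _ hx _ (by simp)
    rw [MonoidAlgebra.coeff_add, e _ Finsupp.support_add, e _ subset_union_left, e _ subset_union_right, ← sum_add_distrib]
    exact sum_le_sum fun k _ => by
      rw [← add_mul]; exact mul_le_mul_of_nonneg_right (abs_add_le _ _) (hw k)) (fun a f => by
    rw [MonoidAlgebra.coeff_smul, Finsupp.sum_smul_index (by simp), Finsupp.mul_sum]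
    simp [abs_mul, mul_assoc])

lemma wn_oo {w : G → ℝ} (hw : ∀ g, 0 ≤ w g) (g : G) : wn w hw (oo g) = w g := by
  change ((oo g).coeff.sum fun g a => |a| * w g) = _
  simp [oo_def]

lemma wn_lin {w : G → ℝ} (hw : ∀ g, 0 ≤ w g) {E : Type*} [AddCommGroup E] [Module ℝ E]
    (p : Seminorm ℝ E) (T : RG G →ₗ[ℝ] E) {c : ℝ} (h : ∀ g, p (T (oo g)) ≤ c * w g) (f : RG G) :
    p (T f) ≤ c * wn w hw f := by
  conv_lhs => rw [← f.sum_coeff_single, Finsupp.sum, map_sum]
  refine (le_sum_of_subadditive p (map_zero p).le (map_add_le_add p) _ _).trans ?_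
  change _ ≤ c * ∑ g ∈ _, _
  rw [mul_sum]
  refine sum_le_sum fun g _ => ?_
  rw [← MonoidAlgebra.smul_of, map_smul, map_smul_eq_mul, mul_left_comm]
  exact mul_le_mul_of_nonneg_left (h g) (norm_nonneg _)

lemma wn_mul {w : G → ℝ} (hw : ∀ g, 0 ≤ w g) (hm : ∀ a b, w (a * b) ≤ w a * w b) (f g : RG G) :
    wn w hw (f * g) ≤ wn w hw f * wn w hw g := by
  rw [mul_comm (wn w hw f)]
  refine wn_lin hw _ (LinearMap.mulRight ℝ g) (fun a => ?_) f
  rw [mul_comm (wn w hw g)]
  exact wn_lin hw _ (LinearMap.mulLeft ℝ (oo a)) (fun b => by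
    simpa [← map_mul, wn_oo] using hm a b) g

/-- sum norm -/
noncomputable def l1 : Seminorm ℝ (RG G) := wn (fun _ => 1) fun _ => zero_le_one

/-- an analytic trace preserving star derivation -/
structure Der (G : Type*) [Group G] where
  d : RG G →ₗ[ℝ] RG G
  leib : ∀ f g, d (f * g) = d f * g + f * d g
  drev : ∀ f, d (rev f) = rev (d f)
  tr0 : ∀ f, t0 (d f) = 0
  C : ℝ
  hC : 0 < C
  bd : ∀ f, ∃ K, ∀ k : ℕ, l1 ((d ^ k) f) ≤ K * C ^ k * k !

lemma leib_one {d : RG G →ₗ[ℝ] RG G} (h : ∀ f g, d (f * g) = d f * g + f * d g) : d 1 = 0 := by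
  simpa using h 1 1

lemma leib_inv {d : RG G →ₗ[ℝ] RG G} (h : ∀ f g, d (f * g) = d f * g + f * d g) (g : G) :
    d (oo g⁻¹) = -(oo g⁻¹ * d (oo g) * oo g⁻¹) := by
  have := congrArg (· * oo g⁻¹) (h (oo g⁻¹) (oo g))
  simp only [oo_inv_mul, leib_one h, zero_mul, add_mul, mul_assoc, oo_mul_inv, mul_one] at this
  rw [mul_assoc, eq_neg_iff_add_eq_zero, this]

lemma leib_pow {d : RG G →ₗ[ℝ] RG G} (h : ∀ f g, d (f * g) = d f * g + f * d g) (f g : RG G)
    (n : ℕ) : (d ^ n) (f * g) = ∑ p ∈ antidiagonal n, n.choose p.1 • ((d ^ p.1) f * (d ^ p.2) g) := by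
  induction n with
  | zero => simp
  | succ n ih =>
    rw [sum_antidiagonal_choose_succ_nsmul (fun i j => (d ^ i) f * (d ^ j) g), pow_succ',
      Module.End.mul_apply, ih, map_sum, ← sum_add_distrib]
    refine sum_congr rfl fun p hp => ?_
    rw [map_nsmul, h, smul_add, add_comm, Nat.choose_symm_of_eq_add (mem_antidiagonal.1 hp).symm]
    simp [pow_succ']

section Free
variable {Λ : Type*}

open TrivSqZeroExt in
lemma exists_leib (c : Λ → RG (FreeGroup Λ)) : ∃ d : RG (FreeGroup Λ) →ₗ[ℝ] RG (FreeGroup Λ),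
    (∀ f g, d (f * g) = d f * g + f * d g) ∧ ∀ s, d (oo (.of s)) = c s * oo (.of s) := by
  let Φ : FreeGroup Λ →* (TrivSqZeroExt (RG (FreeGroup Λ)) (RG (FreeGroup Λ)))ˣ :=
    FreeGroup.lift fun s => ⟨inl (oo (.of s)) + inr (c s * oo (.of s)),
      inl (oo (.of s)⁻¹) + inr (-(oo (.of s)⁻¹ * c s)), by
        ext1 <;> simp [← mul_assoc, oo_mul_inv]; simp [mul_assoc, oo_mul_inv], by
        ext1 <;> simp [mul_assoc, oo_inv_mul]⟩
  have h1 : ∀ g, (Φ g).1.fst = oo g := fun g => by
    induction g using FreeGroup.induction_on with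
    | C1 => simp
    | of s => simp [Φ]
    | inv_of s _ => simp [Φ]
    | mul x y hx hy => simp [hx, hy]
  let d := (MonoidAlgebra.basis (FreeGroup Λ) ℝ).constr ℝ fun g => (Φ g).1.snd
  have h2 : ∀ g, d (oo g) = (Φ g).1.snd := fun g =>
    (MonoidAlgebra.basis (FreeGroup Λ) ℝ).constr_basis ℝ _ g
  refine ⟨d, fun f g => ?_, fun s => by simp [h2, Φ]⟩
  induction f using ind with
  | h1 a =>
    induction g using ind with
    | h1 b =>
      rw [← map_mul, h2, h2, h2, map_mul, Units.val_mul, snd_mul, h1, h1, add_comm]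
      rfl
    | h2 x y hx hy => simp only [mul_add, map_add, hx, hy]; abel
    | h3 r x hx => simp [hx]
  | h2 x y hx hy => simp only [add_mul, map_add, hx, hy]; abel
  | h3 r x hx => simp [hx]

lemma leib_rev {d : RG (FreeGroup Λ) →ₗ[ℝ] RG (FreeGroup Λ)}
    (h : ∀ f g, d (f * g) = d f * g + f * d g) {c : Λ → RG (FreeGroup Λ)}
    (hc : ∀ s, d (oo (.of s)) = c s * oo (.of s)) (hr : ∀ s, rev (c s) = -c s) (f) :
    d (rev f) = rev (d f) := by
  induction f using ind with
  | h1 g =>
    induction g using FreeGroup.induction_on with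
    | C1 => rw [rev_oo, inv_one, map_one, leib_one h, map_zero]
    | of s => simp [leib_inv h, hc, rev_mul, hr, mul_assoc, oo_mul_inv]
    | inv_of s _ =>
      simp [leib_inv h, hc, rev_mul, hr, ← mul_assoc, oo_mul_inv]
    | mul x y hx hy => simp only [map_mul, rev_mul, h, map_add, hx, hy, add_comm]
  | h2 x y hx hy => simp [hx, hy]
  | h3 r x hx => simp [hx]

lemma leib_bd {d : RG (FreeGroup Λ) →ₗ[ℝ] RG (FreeGroup Λ)}
    (h : ∀ f g, d (f * g) = d f * g + f * d g) (hf : {s | d (oo (.of s)) ≠ 0}.Finite) :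
    ∃ C, 0 < C ∧ ∀ f, ∃ K, ∀ k : ℕ, l1 ((d ^ k) f) ≤ K * C ^ k * k ! := by
  classical
  let N := fun r : ℝ => wn (fun g : FreeGroup Λ => Real.exp (r * g.norm)) fun _ => (Real.exp_pos _).le
  have mono : ∀ r r', r ≤ r' → ∀ f, N r f ≤ N r' f := fun r r' hr f => by
    simpa using wn_lin _ (N r) .id (c := 1) (fun g => by
      simpa [N, wn_oo] using mul_le_mul_of_nonneg_right hr (Nat.cast_nonneg _)) f
  have mul : ∀ r, 0 ≤ r → ∀ f g, N r (f * g) ≤ N r f * N r g := fun r hr => wn_mul _ fun a b => by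
    rw [← Real.exp_add, ← mul_add, ← Nat.cast_add]
    gcongr
    exact FreeGroup.norm_mul_le a b
  obtain ⟨C, hC0, hC⟩ : ∃ C, 0 < C ∧ ∀ a, N 1 (d (oo (.mk [a]))) ≤ C := by
    have : (Set.range fun a => d (oo (FreeGroup.mk [a]))).Finite := by
      refine (((hf.prod (Set.toFinite Set.univ)).image
        fun a => d (oo (FreeGroup.mk [a]))).insert 0).subset ?_
      rintro _ ⟨⟨s, b⟩, rfl⟩
      by_cases hs : d (oo (.of s)) = 0
      · left
        cases b
        · exact (leib_inv h (.of s)).trans (by simp [hs])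
        · exact hs
      · exact .inr ⟨(s, b), ⟨hs, trivial⟩, rfl⟩
    obtain ⟨C, hC⟩ := (this.image (N 1)).bddAbove
    exact ⟨max C 1, by positivity, fun a => le_max_of_le_left (hC ⟨_, ⟨a, rfl⟩, rfl⟩)⟩
  have h1 : ∀ r, 0 ≤ r → r ≤ 1 → ∀ l : List (Λ × Bool),
      N r (d (oo (.mk l))) ≤ C * l.length * Real.exp (r * l.length) := fun r h0 h1 l => by
    have e : ∀ l : List (Λ × Bool), N r (oo (.mk l)) ≤ Real.exp (r * l.length) := fun l => by
      rw [wn_oo]; gcongr; exact FreeGroup.norm_mk_le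
    induction l with
    | nil => rw [← FreeGroup.one_eq_mk, map_one, leib_one h]; simp
    | cons a l ih =>
      rw [show FreeGroup.mk (a :: l) = .mk [a] * .mk l from rfl, map_mul, h]
      have a1 := (mul r h0 _ _).trans (mul_le_mul ((mono r 1 h1 _).trans (hC a)) (e l)
        (apply_nonneg _ _) hC0.le)
      have a2 := (mul r h0 _ _).trans (mul_le_mul (e [a]) ih (apply_nonneg _ _) (by positivity))
      refine (map_add_le_add _ _ _).trans ((add_le_add a1 a2).trans ?_)
      simp only [List.length_cons, List.length_nil, Nat.cast_add, Nat.cast_one, zero_add, mul_one,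
        mul_add, Real.exp_add]
      have := mul_le_mul_of_nonneg_left (Real.one_le_exp h0)
        (show 0 ≤ C * Real.exp (r * l.length) by positivity)
      linarith
  have h2 : ∀ r η, 0 ≤ r → r ≤ 1 → 0 < η → ∀ f, N r (d f) ≤ C / η * N (r + η) f :=
    fun r η h0 h1' hη => wn_lin _ _ _ fun g => by
      have := h1 r h0 h1' g.toWord
      rw [FreeGroup.mk_toWord] at this
      refine this.trans ?_
      change C * (g.norm : ℝ) * Real.exp (r * g.norm) ≤ _
      rw [add_mul, Real.exp_add, mul_comm (Real.exp _), ← mul_assoc, div_mul_eq_mul_div,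
        mul_div_assoc]
      gcongr
      rw [le_div_iff₀' hη]
      exact (le_add_of_nonneg_right zero_le_one).trans (Real.add_one_le_exp _)
  refine ⟨C * Real.exp 1, by positivity, fun f => ⟨N 1 f, fun k => ?_⟩⟩
  have h3 : ∀ j ≤ k, N (1 - j / k) ((d ^ j) f) ≤ (C * k) ^ j * N 1 f := fun j hj => by
    induction j with
    | zero => simp
    | succ j ih =>
      have hk : (0 : ℝ) < k := by exact_mod_cast (by omega : 0 < k)
      have := h2 (1 - (j + 1 : ℕ) / k) (1 / k) (by
        rw [sub_nonneg, div_le_one hk]; exact_mod_cast hj) (sub_le_self _ (by positivity))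
        (by positivity) ((d ^ j) f)
      rw [show 1 - ((j + 1 : ℕ) : ℝ) / k + 1 / k = 1 - j / k by push_cast; ring, div_div_eq_mul_div,
        div_one] at this
      rw [pow_succ', pow_succ', mul_assoc]
      exact this.trans (mul_le_mul_of_nonneg_left (ih (by omega)) (by positivity))
  have h4 : l1 ((d ^ k) f) ≤ N (1 - k / k) ((d ^ k) f) := by
    simpa using wn_lin _ l1 .id (c := 1) (fun g => by
      simpa [l1, wn_oo] using mul_nonneg (sub_nonneg.2 (div_self_le_one _)) (Nat.cast_nonneg _)) _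
  have h5 := Real.pow_div_factorial_le_exp (k : ℝ) (Nat.cast_nonneg k) k
  rw [div_le_iff₀ (by positivity), ← mul_one (k : ℝ), Real.exp_nat_mul, mul_one] at h5
  refine (h4.trans (h3 k le_rfl)).trans ?_
  rw [mul_pow, mul_pow, mul_comm, mul_assoc, mul_assoc]
  gcongr

end Free

end Vale.Agent.P086
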