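import Vale.Agent.P085.Lim
import Vale.Agent.P086.Der

/-! Conditional expectations, unitary representations and generated algebras. -/

namespace Vale.Agent.P086

open scoped ComplexConjugate InnerProductSpace BigOperators
open Filter Topology Vale.Agent.P085

/-- completeness of the unit ball in 2-norm -/
class Cmp (A : Type*) [CStarAlgebra A] [TrA A] : Prop where
  complete : ∀ x : ℕ → A, ∀ r : ℝ, (∀ n, ‖x n‖ ≤ r) →
    (∀ ε > 0, ∃ N, ∀ m ≥ N, ∀ n ≥ N, n2 (x m - x n) < ε) → ∃ y, ‖y‖ ≤ r ∧ Conv x y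

variable {A : Type*} [CStarAlgebra A] [TrA A]

section
variable [Cmp A]

lemma conv_norm_le {x : ℕ → A} {y : A} {r : ℝ} (h : Conv x y) (hx : ∀ n, ‖x n‖ ≤ r) :
    ‖y‖ ≤ r := by
  obtain ⟨y', hy', h'⟩ := Cmp.complete x r hx (Metric.cauchySeq_iff.1 h.tendsto.cauchySeq ·
    · |>.imp fun N hN m hm n hn => by simpa [dist_eq_norm, P085.n2] using hN m hm n hn)
  exact h.unique h' ▸ hy'

lemma exists_near {K : Set A} (hne : K.Nonempty) (hK : Convex ℝ K) (hc : CClosed K) {r : ℝ}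
    (hr : ∀ x ∈ K, ‖x‖ ≤ r) (y : A) : ∃ p ∈ K, ∀ q ∈ K, n2 (y - p) ≤ n2 (y - q) := by
  let _ := InnerProductSpace.rclikeToReal ℂ (L2 A)
  let K' : Set (L2 A) := K
  have hcomp : IsComplete K' := by
    rw [← completeSpace_coe_iff_isComplete]
    refine Metric.complete_of_cauchySeq_tendsto fun u hu => ?_
    obtain ⟨z, -, hz⟩ := Cmp.complete (fun n => toL2.symm (u n).1) r (fun n => hr _ (u n).2)
      (Metric.cauchySeq_iff.1 hu · · |>.imp fun N hN m hm n hn => by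
        simpa [Subtype.dist_eq, dist_eq_norm, n2] using hN m hm n hn)
    exact ⟨⟨z, hc _ _ (fun n => (u n).2) hz⟩, tendsto_subtype_rng.2 hz.tendsto⟩
  obtain ⟨p, hp, h⟩ := exists_norm_eq_iInf_of_complete_convex (K := K') hne hcomp hK (toL2 y)
  refine ⟨p, hp, fun q hq => h.trans_le ?_⟩
  exact ciInf_le (f := fun w : K' => ‖toL2 y - w‖) ⟨0, by rintro _ ⟨w, rfl⟩; positivity⟩ ⟨q, hq⟩

lemma condexp_sa {P : StarSubalgebra ℂ A} (hP : CClosed (P : Set A)) {y : A}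
    (hy : IsSelfAdjoint y) (hy1 : ‖y‖ ≤ 1) :
    ∃ p ∈ P, ‖p‖ ≤ 1 ∧ ∀ q ∈ P, tr (q * (y - p)) = 0 := by
  let _ := CStarAlgebra.spectralOrder A
  have _ := CStarAlgebra.spectralOrderedRing A
  have _ := hP.isClosed
  have hK : Convex ℝ {p | p ∈ P ∧ ‖p‖ ≤ 2} :=
    (P.toSubalgebra.toSubmodule.restrictScalars ℝ).convex.inter (t := {p | ‖p‖ ≤ 2})
      (by simpa [Metric.closedBall] using convex_closedBall (0 : A) 2)
  obtain ⟨p, hp, hmin⟩ := exists_near ⟨0, by simp⟩ hK (fun x z hx hz =>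
    ⟨hP x z (fun n => (hx n).1) hz, conv_norm_le hz fun n => (hx n).2⟩) (fun x hx => hx.2) y
  have hps : IsSelfAdjoint p := nearest_unique hK hp ⟨star_mem hp.1, by simpa using hp.2⟩ hmin
    (by rw [← n2_star (y - p), star_sub, hy.star_eq])
  have hp1 : ‖p‖ ≤ 1 := by
    let f : ℝ → ℝ := fun t => max (-1) (min 1 t)
    let g : ℝ → ℝ := fun t => max (t - 1) 0
    let g' : ℝ → ℝ := fun t => max (-1 - t) 0
    have n1 : ‖cfc f p‖ ≤ 1 := norm_cfc_le zero_le_one fun t _ =>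
      abs_le.2 ⟨le_max_left _ _, max_le (by norm_num) (min_le_left _ _)⟩
    have e1 : y - p = y - cfc f p - (cfc g p - cfc g' p) := by
      rw [sub_sub, ← cfc_sub .., ← cfc_add ..]
      nth_rw 1 [← cfc_id' ℝ p]
      congr 2; funext t; simp only [f, g, g', max_def, min_def]; split_ifs <;> linarith
    have e2 : cfc f p * cfc g p = cfc g p := by
      rw [← cfc_mul ..]
      congr 1; funext t; simp only [f, g, max_def, min_def]; split_ifs <;> nlinarith
    have e3 : cfc f p * cfc g' p = -cfc g' p := by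
      rw [← cfc_mul .., ← cfc_neg]
      congr 1; funext t; simp only [f, g', max_def, min_def]; split_ifs <;> nlinarith
    have p1 := tr_mul_nonneg (sub_nonneg.2 (hy.le_algebraMap_norm_self.trans
      (b := algebraMap ℝ A ‖y‖) (c := 1) (by
        rw [← map_one (algebraMap ℝ A)]; exact algebraMap_mono _ hy1)))
      (cfc_nonneg (f := g) (a := p) fun t _ => le_max_right _ _)
    have p2 := tr_mul_nonneg (sub_nonneg.2 (hy.neg.le_algebraMap_norm_self.trans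
      (b := algebraMap ℝ A ‖-y‖) (c := 1) (by
        rw [← map_one (algebraMap ℝ A)]; exact algebraMap_mono _ (by simpa using hy1))))
      (cfc_nonneg (f := g') (a := p) fun t _ => le_max_right _ _)
    refine nearest_unique hK hp ⟨cfc_mem f hp.1, n1.trans one_le_two⟩ hmin
      (le_of_sq_le_sq ?_ (n2_nonneg _)) ▸ n1
    rw [e1, n2_sub_sq _ (_ - _), star_sub, hy.star_eq, (IsSelfAdjoint.cfc).star_eq]
    simp only [mul_sub, sub_mul, e2, e3, map_sub, map_neg, Complex.sub_re, Complex.neg_re, one_mul,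
      neg_mul] at p1 p2 ⊢
    nlinarith [sq_nonneg (n2 (cfc g p - cfc g' p))]
  refine ⟨p, hp.1, hp1, fun q hq => ?_⟩
  by_contra h0
  set c := tr (q * (y - p)) with hc
  have h1 : 0 < ‖c‖ := norm_pos_iff.2 h0
  set s : ℝ := 1 / ((‖q‖ + 1) ^ 2 * (‖c‖ + 1)) with hs
  have hs0 : 0 < s := by positivity
  have hs1 : s * ((‖q‖ + 1) ^ 2 * (‖c‖ + 1)) = 1 := one_div_mul_cancel (by positivity)
  have := pow_le_pow_left₀ (n2_nonneg _) (hmin (p + (s * conj c) • q)
    ⟨add_mem hp.1 (P.smul_mem hq _), (norm_add_le _ _).trans (by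
      rw [norm_smul, norm_mul, Complex.norm_conj, Complex.norm_real, Real.norm_of_nonneg hs0.le]
      nlinarith [norm_nonneg q, mul_pos hs0 h1, mul_nonneg (mul_pos hs0 h1).le (norm_nonneg q),
        mul_nonneg hs0.le (norm_nonneg q), mul_nonneg (mul_pos hs0 h1).le (sq_nonneg ‖q‖),
        mul_nonneg hs0.le (sq_nonneg ‖q‖)])⟩) 2
  rw [← sub_sub, n2_sub_sq _ (_ • _), (hy.sub hps).star_eq, mul_smul_comm, map_smul, tr_comm, ← hc,
    n2_smul, norm_mul, Complex.norm_conj, Complex.norm_real, Real.norm_of_nonneg hs0.le,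
    smul_eq_mul, mul_assoc, Complex.conj_mul', ← Complex.ofReal_pow, ← Complex.ofReal_mul,
    Complex.ofReal_re] at this
  have h2 := pow_le_pow_left₀ (n2_nonneg q) (n2_le_norm q) 2
  have h3 : s * n2 q ^ 2 ≤ 1 := by
    nlinarith [norm_nonneg q, mul_nonneg hs0.le (norm_nonneg q), mul_pos hs0 h1,
      mul_nonneg (mul_pos hs0 h1).le (sq_nonneg (‖q‖ + 1)), mul_le_mul_of_nonneg_left h2 hs0.le]
  nlinarith [mul_pos hs0 (pow_pos h1 2), mul_le_mul_of_nonneg_left h3 (mul_pos hs0 (pow_pos h1 2)).le]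

lemma condexp {P : StarSubalgebra ℂ A} (hP : CClosed (P : Set A)) (y : A) :
    ∃ p ∈ P, ‖p‖ ≤ 2 * (‖y‖ + 1) ∧ ∀ q ∈ P, tr (q * (y - p)) = 0 := by
  have h0 : 0 < ‖y‖ + 1 := by positivity
  have key : ∀ z : A, IsSelfAdjoint z → ‖z‖ ≤ ‖y‖ →
      ∃ p ∈ P, ‖p‖ ≤ ‖y‖ + 1 ∧ ∀ q ∈ P, tr (q * (z - p)) = 0 := fun z hz hz1 => by
    obtain ⟨p, h1, h2, h3⟩ := condexp_sa hP ((IsSelfAdjoint.all (‖y‖ + 1)⁻¹).smul hz) (by
      rw [norm_smul, Real.norm_of_nonneg (by positivity)]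
      exact inv_mul_le_one_of_le₀ (by linarith) h0.le)
    refine ⟨(‖y‖ + 1) • p, P.toSubalgebra.toSubmodule.smul_of_tower_mem _ h1, ?_, fun q hq => ?_⟩
    · rw [norm_smul, Real.norm_of_nonneg h0.le]; exact mul_le_of_le_one_right h0.le h2
    · rw [← smul_inv_smul₀ h0.ne' z, ← smul_sub, mul_smul_comm, tr_rsmul, h3 q hq, mul_zero]
  obtain ⟨p, h1, h2, h3⟩ := key _ (realPart y).2 (realPart.norm_le y)
  obtain ⟨p', h4, h5, h6⟩ := key _ (imaginaryPart y).2 (imaginaryPart.norm_le y)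
  refine ⟨p + Complex.I • p', add_mem h1 (P.smul_mem h4 _), (norm_add_le _ _).trans (by
    rw [norm_smul, Complex.norm_I]; linarith), fun q hq => ?_⟩
  nth_rw 1 [← realPart_add_I_smul_imaginaryPart y]
  rw [add_sub_add_comm, ← smul_sub, mul_add, map_add, h3 q hq, mul_smul_comm, map_smul, h6 q hq]
  simp

omit [Cmp A] in
lemma orth_le {P : StarSubalgebra ℂ A} {y p q : A} (hp : p ∈ P) (hq : q ∈ P)
    (h : ∀ q ∈ P, tr (q * (y - p)) = 0) : n2 (y - p) ≤ n2 (y - q) := by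
  refine le_of_sq_le_sq ?_ (n2_nonneg _)
  rw [show y - q = (p - q) + (y - p) by abel, n2_add_sq, h _ (star_mem (sub_mem hp hq))]
  simpa using sq_nonneg _

lemma mem_of_near {P : StarSubalgebra ℂ A} (hP : CClosed (P : Set A)) {y : A}
    (h : ∀ ε > 0, ∃ q ∈ P, n2 (y - q) ≤ ε) : y ∈ P := by
  obtain ⟨p, h1, -, h2⟩ := condexp hP y
  have : n2 (y - p) ≤ 0 := le_of_forall_pos_le_add fun ε hε => by
    obtain ⟨q, hq, h3⟩ := h ε hε
    simpa using (orth_le h1 hq h2).trans h3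
  rwa [sub_eq_zero.1 (n2_eq_zero.1 (this.antisymm (n2_nonneg _)))]

end

/-- unitary representations -/
structure Rep (G A : Type*) [Group G] [CStarAlgebra A] where
  π : G →* A
  st : ∀ g, star (π g) = π g⁻¹

variable {G G' : Type*} [Group G] [Group G']

namespace Rep
variable (ρ : Rep G A)

/-- the trace is the canonical one -/
def Free : Prop := ∀ g ≠ 1, tr (ρ.π g) = 0

/-- restriction -/
def comp (ι : G' →* G) : Rep G' A := ⟨ρ.π.comp ι, fun _ => by simp [ρ.st]⟩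

omit [TrA A] in
@[simp] lemma comp_π (ι : G' →* G) (g : G') : (ρ.comp ι).π g = ρ.π (ι g) := rfl

lemma Free.comp {ρ : Rep G A} (h : ρ.Free) {ι : G' →* G} (hι : Function.Injective ι) :
    (ρ.comp ι).Free := fun _ hg => h _ ((map_ne_one_iff ι hι).2 hg)

omit [TrA A] in
lemma uni (g : G) : ρ.π g ∈ unitary A := by
  constructor <;> rw [ρ.st, ← map_mul] <;> simp

lemma norm_le (g : G) : ‖ρ.π g‖ ≤ 1 := norm_unitary_le (ρ.uni g)

lemma n2_eq (g : G) : n2 (ρ.π g) = 1 := by simpa using n2_mul_unitary (ρ.uni g) 1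

/-- evaluation -/
noncomputable def ev : RG G →ₐ[ℝ] A := MonoidAlgebra.lift ℝ A G ρ.π

omit [TrA A] in
@[simp] lemma ev_oo (g : G) : ρ.ev (oo g) = ρ.π g := MonoidAlgebra.lift_of _ _

omit [TrA A] in
lemma ev_rev (f : RG G) : ρ.ev (rev f) = star (ρ.ev f) := by
  induction f using ind with
  | h1 a => simp [ρ.st]
  | h2 x y hx hy => simp [hx, hy]
  | h3 r x hx => simp [hx]

lemma norm_ev (f : RG G) : ‖ρ.ev f‖ ≤ l1 f := by
  simpa [l1] using wn_lin _ (normSeminorm ℝ A) ρ.ev.toLinearMap (c := 1)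
    (fun g => by simpa using ρ.norm_le g) f

lemma Free.tr_ev {ρ : Rep G A} (h : ρ.Free) (f : RG G) : tr (ρ.ev f) = t0 f := by
  induction f using ind with
  | h1 a =>
    by_cases ha : a = 1
    · simp [ha, tr_one]
    · simp [h a ha, t0_ne ha]
  | h2 x y hx hy => simp [hx, hy]
  | h3 r x hx => simp [hx]

lemma Free.n2_sum {ρ : Rep G A} (h : ρ.Free) {ι : Type*} (s : Finset ι) {f : ι → G}
    (hf : Set.InjOn f s) : n2 (∑ i ∈ s, ρ.π (f i)) ^ 2 = s.card := by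
  classical
  rw [n2_sq, star_sum, Finset.sum_mul_sum, map_sum, Complex.re_sum, Finset.card_eq_sum_ones]
  push_cast
  refine Finset.sum_congr rfl fun i hi => ?_
  rw [map_sum, Finset.sum_eq_single_of_mem i hi fun j hj hij => ?_, (ρ.uni _).1, tr_one,
    Complex.one_re]
  rw [ρ.st, ← map_mul]
  exact h _ fun e => hij (hf hj hi (inv_mul_eq_one.1 e).symm)

/-- closed span -/
noncomputable def cls (H : Subgroup G) : Submodule ℂ A :=
  sInf {V | CClosed (V : Set A) ∧ ∀ g ∈ H, ρ.π g ∈ V}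

lemma cls_le {H : Subgroup G} {V : Submodule ℂ A} (h1 : CClosed (V : Set A))
    (h2 : ∀ g ∈ H, ρ.π g ∈ V) : ρ.cls H ≤ V := sInf_le ⟨h1, h2⟩

lemma mem_cls {H : Subgroup G} {g : G} (hg : g ∈ H) : ρ.π g ∈ ρ.cls H :=
  Submodule.mem_sInf.2 fun _ hV => hV.2 g hg

lemma cls_closed (H : Subgroup G) : CClosed (ρ.cls H : Set A) := fun x y hx hy =>
  Submodule.mem_sInf.2 fun V hV => hV.1 x y (fun n => Submodule.mem_sInf.1 (hx n) V hV) hy

/-- generated von Neumann subalgebra -/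
noncomputable def cl (H : Subgroup G) : StarSubalgebra ℂ A where
  carrier := ρ.cls H
  mul_mem' {a b} ha hb := by
    refine ρ.cls_le (V := (ρ.cls H).comap (LinearMap.mulRight ℂ b))
      (fun x y hx hy => ρ.cls_closed H _ _ hx (hy.mul (.const b))) (fun g hg => ?_) ha
    exact ρ.cls_le (V := (ρ.cls H).comap (LinearMap.mulLeft ℂ (ρ.π g)))
      (fun x y hx hy => ρ.cls_closed H _ _ hx ((Conv.const _).mul hy))
      (fun g' hg' => by simpa using ρ.mem_cls (mul_mem hg hg')) hb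
  add_mem' := add_mem
  algebraMap_mem' c := by
    simpa [Algebra.algebraMap_eq_smul_one] using (ρ.cls H).smul_mem c (ρ.mem_cls (one_mem H))
  star_mem' {a} ha := ρ.cls_le (V := (ρ.cls H).comap (starₗᵢ ℂ).toLinearEquiv.toLinearMap)
    (fun x y hx hy => ρ.cls_closed H _ _ hx hy.star)
    (fun g hg => by simpa [ρ.st] using ρ.mem_cls (inv_mem hg)) ha

lemma cl_closed (H : Subgroup G) : CClosed (ρ.cl H : Set A) := ρ.cls_closed H

lemma mem_cl {H : Subgroup G} {g : G} (hg : g ∈ H) : ρ.π g ∈ ρ.cl H := ρ.mem_cls hg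

lemma cl_le {H : Subgroup G} {P : StarSubalgebra ℂ A} (h1 : CClosed (P : Set A))
    (h2 : ∀ g ∈ H, ρ.π g ∈ P) : ρ.cl H ≤ P :=
  ρ.cls_le (V := P.toSubalgebra.toSubmodule) h1 h2

lemma cl_mono {H H' : Subgroup G} (h : H ≤ H') : ρ.cl H ≤ ρ.cl H' :=
  ρ.cl_le (ρ.cl_closed _) fun _ hg => ρ.mem_cl (h hg)

lemma cl_map (ι : G' →* G) (H : Subgroup G') : ρ.cl (H.map ι) = (ρ.comp ι).cl H :=
  le_antisymm (ρ.cl_le (cl_closed _ _) fun _ ⟨_, hg, e⟩ => e ▸ (ρ.comp ι).mem_cl hg)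
    ((ρ.comp ι).cl_le (cl_closed _ _) fun g hg => ρ.mem_cl ⟨g, hg, rfl⟩)

lemma cl_lin {H : Subgroup G} {a : A} {c : ℂ} (h : ∀ g ∈ H, tr (a * ρ.π g) = c * tr (ρ.π g))
    {y : A} (hy : y ∈ ρ.cl H) : tr (a * y) = c * tr y := by
  exact ρ.cls_le (V := LinearMap.eqLocus (tr ∘ₗ LinearMap.mulLeft ℂ a) (c • tr))
    (fun x y hx hy => tendsto_nhds_unique ((Conv.const a).mul hy).tr
      ((hy.tr.const_mul c).congr fun n => (hx n).symm)) h hy

lemma cl_bil {H H' : Subgroup G} {a b : A} {c : ℂ}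
    (h : ∀ g ∈ H, ∀ g' ∈ H', tr (a * ρ.π g * b * ρ.π g') = c * tr (ρ.π g) * tr (ρ.π g'))
    {y z : A} (hy : y ∈ ρ.cl H) (hz : z ∈ ρ.cl H') : tr (a * y * b * z) = c * tr y * tr z := by
  have e : ∀ y, tr (a * y * b * z) = tr (b * z * a * y) := fun y => by
    rw [mul_assoc _ b, tr_comm, ← mul_assoc]
  rw [e, mul_right_comm]
  exact ρ.cl_lin (fun g hg => by rw [← e, mul_right_comm]; exact ρ.cl_lin (h g hg) hz) hy

lemma cl_near {H : Subgroup G} {y : A} (hy : y ∈ ρ.cl H) {ε : ℝ} (hε : 0 < ε) :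
    ∃ q ∈ Submodule.span ℂ (ρ.π '' H), n2 (y - q) < ε := by
  let W : Submodule ℂ (L2 A) := (Submodule.span ℂ (ρ.π '' H)).map toL2.toLinearMap
  have : toL2 y ∈ closure (W : Set (L2 A)) :=
    ρ.cls_le (V := W.topologicalClosure.comap toL2.toLinearMap)
    (fun x y hx hy => W.isClosed_topologicalClosure.mem_of_tendsto hy.tendsto
      (.of_forall hx)) (fun g hg => W.le_topologicalClosure
        (Submodule.mem_map_of_mem (Submodule.subset_span ⟨g, hg, rfl⟩))) hy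
  obtain ⟨_, ⟨q, hq, rfl⟩, h⟩ := Metric.mem_closure_iff.1 this ε hε
  exact ⟨q, hq, by simpa [dist_eq_norm, n2] using h⟩

end Rep

end Vale.Agent.P086
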