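import Mathlib

namespace Vale.Agent.P086

variable {G H : Type} [Group G] [NormedAddCommGroup H] [InnerProductSpace ℂ H] [CompleteSpace H]

/-- `H` is `ℓ²(G)`, given by an orthonormal basis `δ` indexed by `G`. The left regular
representation: the set of bounded operators `λ(g)`, `g ∈ G`, where `λ(g) δ_h = δ_{gh}`. -/
def leftReg (δ : HilbertBasis G ℂ H) : Set (H →L[ℂ] H) :=
  {T | ∃ g : G, ∀ h : G, T (δ h) = δ (g * h)}

/-- The group von Neumann algebra: the double commutant of the left regular representation. -/
noncomputable def groupVN (δ : HilbertBasis G ℂ H) : StarSubalgebra ℂ (H →L[ℂ] H) :=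
  StarSubalgebra.centralizer ℂ (StarSubalgebra.centralizer ℂ (leftReg δ) : Set (H →L[ℂ] H))

/-- The free group on `n` generators, countably infinitely many when `n = ⊤`. -/
abbrev F (n : ℕ∞) := FreeGroup {i : ℕ // (i : ℕ∞) < n}

end Vale.Agent.P086
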