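import Vale.Agent.P086.Cl

/-! The flow of an analytic derivation. -/

namespace Vale.Agent.P086

open scoped ComplexConjugate InnerProductSpace BigOperators Nat
open Filter Topology Vale.Agent.P085 Finset

variable {A : Type*} [CStarAlgebra A] [TrA A] {G : Type*} [Group G]

omit [TrA A] in
lemma tsum_shift {a : ℕ → A} {K C h : ℝ} (hK : 0 ≤ K) (hC : 0 ≤ C)
    (ha : ∀ n, ‖a n‖ ≤ K * C ^ n * n !) (hh : |h| * C ≤ 1 / 4) :
    ∑' k, ((-h) ^ k / k !) • ∑' j, (h ^ j / j !) • a (j + k) = a 0 := by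
  let F : ℕ × ℕ → A := fun p => ((-h) ^ p.1 / p.1 ! * (h ^ p.2 / p.2 !)) • a (p.2 + p.1)
  have h1 : ∀ p, ‖F p‖ ≤ K * ((1 / 2) ^ p.1 * (1 / 2) ^ p.2) := fun ⟨k, j⟩ => by
    have e : ((j + k)! : ℝ) ≤ 2 ^ (j + k) * (k ! * j !) := by
      rw [← Nat.add_choose_mul_factorial_mul_factorial, mul_comm (k ! : ℝ)]
      push_cast
      rw [mul_assoc]
      gcongr
      exact_mod_cast Nat.choose_le_two_pow _ _
    simp only [F, norm_smul, norm_mul, norm_div, norm_pow, norm_neg, Real.norm_eq_abs,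
      Nat.abs_cast]
    calc _ ≤ |h| ^ k / k ! * (|h| ^ j / j !) * (K * C ^ (j + k) * (2 ^ (j + k) * (k ! * j !))) := by
          gcongr; exact (ha _).trans (by gcongr)
      _ = K * ((|h| * C * 2) ^ k * (|h| * C * 2) ^ j) := by field_simp; ring
      _ ≤ _ := by gcongr <;> linarith
  have h2 : Summable F := .of_norm_bounded ((summable_geometric_two.mul_of_nonneg
    summable_geometric_two (fun _ => by positivity) fun _ => by positivity).mul_left K) h1
  have h3 := (HasAntidiagonal.sigmaAntidiagonalEquivProd.hasSum_iff.2 h2.hasSum).sigma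
    (g := fun n => if n = 0 then a 0 else 0) fun n => by
      convert hasSum_fintype _
      refine Eq.trans ?_ (sum_coe_sort (antidiagonal n) F).symm
      rw [sum_congr rfl fun p hp => show F p = ((n ! : ℝ)⁻¹ * ((-h) ^ p.1 * h ^ p.2 * n.choose p.1)) • a n by
        obtain rfl := mem_antidiagonal.1 hp
        simp only [F, add_comm p.2]
        rw [Nat.cast_add_choose]
        congr 1
        field_simp, ← sum_smul, ← mul_sum]
      have := Commute.add_pow' (Commute.all (-h) h) n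
      simp only [nsmul_eq_mul, mul_comm ((_ : ℕ) : ℝ)] at this
      rw [← this]
      cases n <;> simp
  rw [← h3.unique (hasSum_ite_eq 0 (a 0)), h2.tsum_prod]
  refine tsum_congr fun k => ?_
  rw [← tsum_const_smul'']
  simp only [F, smul_smul]

namespace Der
variable (D : Der G) (ρ : Rep G A) {h : ℝ}

/-- terms of the exponential series -/
noncomputable def tm (h : ℝ) (f : RG G) (k : ℕ) : A := (h ^ k / k !) • ρ.ev ((D.d ^ k) f)

/-- the exponential series -/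
noncomputable def ex (h : ℝ) (f : RG G) : A := ∑' k, D.tm ρ h f k

lemma norm_ev (f : RG G) : ∃ K, 0 ≤ K ∧ ∀ (ρ : Rep G A) (k : ℕ),
    ‖ρ.ev ((D.d ^ k) f)‖ ≤ K * D.C ^ k * k ! := by
  obtain ⟨K, hK⟩ := D.bd f
  exact ⟨K, (apply_nonneg _ _).trans ((hK 0).trans_eq (by simp)),
    fun ρ k => (ρ.norm_ev _).trans (hK k)⟩

lemma norm_tm (f : RG G) : ∃ K, 0 ≤ K ∧ ∀ (ρ : Rep G A) (h : ℝ) (k : ℕ),
    ‖D.tm ρ h f k‖ ≤ K * (|h| * D.C) ^ k := by
  obtain ⟨K, hK, h1⟩ := D.norm_ev (A := A) f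
  refine ⟨K, hK, fun ρ h k => ?_⟩
  rw [tm, norm_smul, norm_div, norm_pow, Real.norm_eq_abs, Real.norm_natCast]
  exact (mul_le_mul_of_nonneg_left (h1 ρ k) (by positivity)).trans_eq (by field_simp; ring)

lemma summable_norm (hh : |h| * D.C ≤ 1 / 4) (f : RG G) : Summable fun k => ‖D.tm ρ h f k‖ := by
  obtain ⟨K, -, h1⟩ := D.norm_tm (A := A) f
  exact .of_nonneg_of_le (fun _ => norm_nonneg _) (h1 ρ h) ((summable_geometric_of_lt_one
    (mul_nonneg (abs_nonneg _) D.hC.le) (by linarith)).mul_left K)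

lemma hasSum (hh : |h| * D.C ≤ 1 / 4) (f : RG G) : HasSum (D.tm ρ h f) (D.ex ρ h f) :=
  (D.summable_norm ρ hh f).of_norm.hasSum

omit [TrA A] in
lemma ex_of_zero {f : RG G} (hf : D.d f = 0) : D.ex ρ h f = ρ.ev f := by
  rw [ex, tsum_eq_single 0 fun k hk => ?_]
  · simp [tm]
  · obtain ⟨k, rfl⟩ := Nat.exists_eq_succ_of_ne_zero hk
    simp [tm, pow_succ, hf]

lemma ex_mul (hh : |h| * D.C ≤ 1 / 4) (f g : RG G) :
    D.ex ρ h (f * g) = D.ex ρ h f * D.ex ρ h g := by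
  rw [ex, ex, ex, tsum_mul_tsum_eq_tsum_sum_antidiagonal_of_summable_norm (D.summable_norm ρ hh f)
    (D.summable_norm ρ hh g)]
  refine tsum_congr fun n => ?_
  rw [tm, leib_pow D.leib, map_sum, smul_sum]
  refine sum_congr rfl fun p hp => ?_
  obtain rfl := mem_antidiagonal.1 hp
  rw [tm, tm, smul_mul_smul_comm, map_nsmul, map_mul, ← Nat.cast_smul_eq_nsmul ℝ, smul_smul,
    Nat.cast_add_choose]
  congr 1
  field_simp
  ring

omit [TrA A] in
lemma ex_rev (f : RG G) : D.ex ρ h (rev f) = star (D.ex ρ h f) := by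
  have : ∀ k, (D.d ^ k) (rev f) = rev ((D.d ^ k) f) := fun k => by
    induction k with
    | zero => rfl
    | succ k ih => rw [pow_succ', Module.End.mul_apply, ih, D.drev]; rfl
  simp [ex, tsum_star, tm, this, ρ.ev_rev]

/-- the flow -/
noncomputable def fl (hh : |h| * D.C ≤ 1 / 4) : Rep G A where
  π := ⟨⟨fun g => D.ex ρ h (oo g), by
    rw [map_one, D.ex_of_zero ρ (leib_one D.leib), map_one]⟩, fun a b => by
      simp only [map_mul, D.ex_mul ρ hh]⟩
  st g := (D.ex_rev ρ (oo g)).symm.trans (congrArg (D.ex ρ h) (rev_oo g))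

lemma ev_fl (hh : |h| * D.C ≤ 1 / 4) (f : RG G) : (D.fl ρ hh).ev f = D.ex ρ h f := by
  induction f using ind with
  | h1 a => exact Rep.ev_oo _ _
  | h2 x y hx hy =>
    rw [map_add, hx, hy]
    exact ((D.hasSum ρ hh x).add (D.hasSum ρ hh y)).unique
      (by convert D.hasSum ρ hh (x + y) using 2; simp [tm])
  | h3 r x hx =>
    rw [map_smul, hx]
    exact ((D.hasSum ρ hh x).const_smul r).unique
      (by convert D.hasSum ρ hh (r • x) using 2; simp [tm, smul_comm r])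

lemma free_fl {ρ : Rep G A} (hρ : ρ.Free) (hh : |h| * D.C ≤ 1 / 4) : (D.fl ρ hh).Free := by
  intro g hg
  refine ((D.hasSum ρ hh (oo g)).map (LinearMap.mkContinuous tr 1 fun x => by
    simpa using norm_tr_le x) (ContinuousLinearMap.continuous _)).unique ?_
  convert hasSum_zero with k
  simp only [Function.comp, LinearMap.mkContinuous_apply, tm, tr_rsmul, hρ.tr_ev]
  cases k with
  | zero => simp [t0_ne hg]
  | succ k => simp [pow_succ', D.tr0]

lemma fl_fl (hh : |h| * D.C ≤ 1 / 4) (hh' : |-h| * D.C ≤ 1 / 4) (g : G) :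
    (D.fl (D.fl ρ hh) hh').π g = ρ.π g := by
  obtain ⟨K, hK, h1⟩ := D.norm_ev (A := A) (oo g)
  have := tsum_shift hK D.hC.le (h1 ρ) hh
  simp only [pow_add, Module.End.mul_apply, pow_zero, Module.End.one_apply, Rep.ev_oo] at this
  rw [← this]
  exact tsum_congr fun k => by rw [tm, ev_fl]; rfl

lemma err (f : RG G) : ∃ K, 0 ≤ K ∧ ∀ (ρ : Rep G A) (h : ℝ) (hh : |h| * D.C ≤ 1 / 4),
    ‖(D.fl ρ hh).ev f - ρ.ev f - h • ρ.ev (D.d f)‖ ≤ K * h ^ 2 := by
  obtain ⟨K, hK, h1⟩ := D.norm_tm (A := A) f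
  refine ⟨K * D.C ^ 2 * 2, by positivity, fun ρ h hh => ?_⟩
  rw [ev_fl, ex, ← (D.hasSum ρ hh f).summable.sum_add_tsum_nat_add 2]
  simp only [sum_range_succ, range_zero, sum_empty, tm, pow_zero, pow_one, Nat.factorial_zero,
    Nat.factorial_one, Nat.cast_one, div_one, one_smul, zero_add, Module.End.one_apply,
    add_assoc, add_sub_cancel_left]
  refine (tsum_of_norm_bounded (hasSum_geometric_two.mul_left (K * D.C ^ 2 * h ^ 2))
    fun k => (h1 ρ h (k + 2)).trans ?_).trans_eq (by ring)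
  rw [pow_add, mul_pow _ _ 2, sq_abs]
  have := pow_le_pow_left₀ (mul_nonneg (abs_nonneg _) D.hC.le) (hh.trans (by norm_num : (1 / 4 : ℝ) ≤ 1 / 2)) k
  calc _ = K * D.C ^ 2 * h ^ 2 * (|h| * D.C) ^ k := by ring
    _ ≤ _ := by gcongr

/-- invariant subgroups -/
def Inv (H : Subgroup G) : Prop := ∀ g ∈ H, D.d (oo g) ∈ Submodule.span ℝ (oo '' H)

lemma cl_fl_le (hh : |h| * D.C ≤ 1 / 4) {H : Subgroup G} (hH : D.Inv H) :
    (D.fl ρ hh).cl H ≤ ρ.cl H := by
  refine Rep.cl_le _ (ρ.cl_closed H) fun g hg => ?_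
  have h1 : ∀ k, (D.d ^ k) (oo g) ∈ Submodule.span ℝ (oo '' H) := fun k => by
    induction k with
    | zero => exact Submodule.subset_span ⟨g, hg, rfl⟩
    | succ k ih =>
      rw [pow_succ']
      exact (Submodule.span_le (p := (Submodule.span ℝ _).comap D.d)).2
        (by rintro _ ⟨g, hg, rfl⟩; exact hH g hg) ih
  let V := (ρ.cl H).toSubalgebra.toSubmodule.restrictScalars ℝ
  refine (ρ.cl_closed H).isClosed.mem_of_tendsto (D.hasSum ρ hh (oo g))
    (.of_forall fun s => V.sum_mem fun k _ => V.smul_mem _ ?_)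
  exact (Submodule.span_le (p := V.comap ρ.ev.toLinearMap)).2
    (by rintro _ ⟨g, hg, rfl⟩; simpa [V] using ρ.mem_cl hg) (h1 k)

lemma cl_fl (hh : |h| * D.C ≤ 1 / 4) {H : Subgroup G} (hH : D.Inv H) :
    (D.fl ρ hh).cl H = ρ.cl H := by
  have hh' : |-h| * D.C ≤ 1 / 4 := by rwa [abs_neg]
  refine (D.cl_fl_le ρ hh hH).antisymm (ρ.cl_le (Rep.cl_closed _ _) fun g hg => ?_)
  exact D.cl_fl_le _ hh' hH (D.fl_fl ρ hh hh' g ▸ Rep.mem_cl _ hg)

lemma inv_closure {s : Set G} (h : ∀ g ∈ s, D.d (oo g) ∈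
    Submodule.span ℝ (oo '' (Subgroup.closure s : Set G))) : D.Inv (Subgroup.closure s) := by
  have m : ∀ g ∈ Subgroup.closure s, oo g ∈ Submodule.span ℝ (oo '' (Subgroup.closure s : Set G)) :=
    fun g hg => Submodule.subset_span ⟨g, hg, rfl⟩
  have mul : ∀ a ∈ Submodule.span ℝ (oo '' (Subgroup.closure s : Set G)),
      ∀ b ∈ Submodule.span ℝ (oo '' (Subgroup.closure s : Set G)),
      a * b ∈ Submodule.span ℝ (oo '' (Subgroup.closure s : Set G)) := fun a ha b hb => by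
    have := Submodule.mul_mem_mul ha hb
    rwa [Submodule.span_mul_span, ← Set.image_mul, coe_mul_coe] at this
  intro g hg
  induction hg using Subgroup.closure_induction with
  | mem g hg => exact h g hg
  | one => rw [map_one, leib_one D.leib]; exact zero_mem _
  | mul a b ha hb h1 h2 => rw [map_mul, D.leib]; exact add_mem (mul _ h1 _ (m b hb)) (mul _ (m a ha) _ h2)
  | inv a ha h1 =>
    rw [leib_inv D.leib]
    exact neg_mem (mul _ (mul _ (m _ (inv_mem ha)) _ h1) _ (m _ (inv_mem ha)))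

lemma flow {t η m₁ m₂ : ℝ} (ht : 0 < t) (hη : 0 < η) (f₁ f₂ : RG G)
    (h₁ : ∀ ρ : Rep G A, ρ.Free → n2 (ρ.ev (D.d f₁)) ≤ m₁)
    (h₂ : ∀ ρ : Rep G A, ρ.Free → n2 (ρ.ev (D.d (D.d f₂))) ≤ m₂) {ρ : Rep G A} (hρ : ρ.Free) :
    ∃ ρ' : Rep G A, ρ'.Free ∧ (∀ H, D.Inv H → ρ'.cl H = ρ.cl H) ∧
      (∀ g, D.d (oo g) = 0 → ρ'.π g = ρ.π g) ∧ n2 (ρ'.ev f₁ - ρ.ev f₁) ≤ t * m₁ + η ∧
      n2 (ρ'.ev f₂ - ρ.ev f₂ - t • ρ'.ev (D.d f₂)) ≤ 2 * t ^ 2 * m₂ + η := by
  obtain ⟨K₁, a1, b1⟩ := D.err (A := A) f₁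
  obtain ⟨K₂, a2, b2⟩ := D.err (A := A) f₂
  obtain ⟨K₃, a3, b3⟩ := D.err (A := A) (D.d f₂)
  have hC := D.hC
  obtain ⟨N, hN⟩ := exists_nat_gt (4 * t * D.C + t ^ 2 * (K₁ + K₂ + 2 * t * K₃) / η)
  have hN0 : (0 : ℝ) < N := lt_of_le_of_lt (by positivity) hN
  set h := t / N with hd
  have h0 : 0 < h := by positivity
  have e : N * h = t := mul_div_cancel₀ _ hN0.ne'
  have hh : |h| * D.C ≤ 1 / 4 := by
    rw [abs_of_pos h0, hd, div_mul_eq_mul_div, div_le_iff₀ hN0]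
    linarith [show 0 ≤ t ^ 2 * (K₁ + K₂ + 2 * t * K₃) / η by positivity]
  have hs : t * h * (K₁ + K₂ + 2 * t * K₃) ≤ η := by
    have : t ^ 2 * (K₁ + K₂ + 2 * t * K₃) / η ≤ N := by linarith [show 0 ≤ 4 * t * D.C by positivity]
    rw [div_le_iff₀ hη] at this
    rw [hd, mul_div_assoc', div_mul_eq_mul_div, div_le_iff₀ hN0]
    linarith
  let r : ℕ → Rep G A := fun j => (fun ρ => D.fl ρ hh)^[j] ρ
  have hr : ∀ j, r (j + 1) = D.fl (r j) hh := fun j => Function.iterate_succ_apply' _ _ _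
  have fr : ∀ j, (r j).Free := fun j => by
    induction j with
    | zero => exact hρ
    | succ j ih => exact hr j ▸ D.free_fl ih hh
  have step : ∀ (f : RG G) (K M : ℝ) (y : A), (∀ (ρ : Rep G A) (h : ℝ) (hh : |h| * D.C ≤ 1 / 4),
      ‖(D.fl ρ hh).ev f - ρ.ev f - h • ρ.ev (D.d f)‖ ≤ K * h ^ 2) →
      (∀ j ≤ N, n2 ((r j).ev (D.d f) - y) ≤ M) → ∀ j ≤ N,
        n2 ((r j).ev f - ρ.ev f - (j * h) • y) ≤ j * (h * M + K * h ^ 2) := by
    intro f K M y b hM j hj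
    induction j with
    | zero => simp [r]
    | succ j ih =>
      rw [show (r (j + 1)).ev f - ρ.ev f - (((j + 1 : ℕ) : ℝ) * h) • y =
        ((r j).ev f - ρ.ev f - (j * h) • y) + (h • ((r j).ev (D.d f) - y) +
          ((r (j + 1)).ev f - (r j).ev f - h • (r j).ev (D.d f))) by push_cast; module]
      have c1 := (n2_le_norm _).trans (b (r j) h hh)
      have c2 := mul_le_mul_of_nonneg_left (hM j (by omega)) h0.le
      rw [← hr] at c1
      refine (n2_add_le _ _).trans (le_trans (add_le_add (ih (by omega)) (n2_add_le _ _)) ?_)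
      rw [n2_rsmul, abs_of_pos h0]
      push_cast
      linarith
  have m0 : 0 ≤ m₂ := (n2_nonneg _).trans (h₂ ρ hρ)
  have s1 := step f₁ K₁ m₁ 0 b1 (fun j _ => by simpa using h₁ _ (fr j)) N le_rfl
  have s3 : ∀ j ≤ N, n2 ((r j).ev (D.d f₂) - ρ.ev (D.d f₂)) ≤ t * (m₂ + K₃ * h) := fun j hj => by
    have := step _ K₃ m₂ 0 b3 (fun j _ => by simpa using h₂ _ (fr j)) j hj
    rw [smul_zero, sub_zero] at this
    refine this.trans (((mul_le_mul_of_nonneg_right (Nat.cast_le.2 hj) (by positivity))).trans_eq ?_)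
    rw [← e]; ring
  have s2 := step f₂ K₂ _ _ b2 s3 N le_rfl
  refine ⟨r N, fr N, fun H hH => ?_, fun g hg => ?_, ?_, ?_⟩
  · exact Nat.rec rfl (fun j ih => by rw [hr, D.cl_fl _ hh hH, ih]) N
  · exact Nat.rec rfl (fun j ih => by
      rw [hr, ← Rep.ev_oo, ev_fl, D.ex_of_zero _ hg, Rep.ev_oo, ih]) N
  · rw [smul_zero, sub_zero] at s1
    have : t * h * K₁ ≤ η := le_trans (by gcongr; linarith [show 0 ≤ 2 * t * K₃ by positivity]) hs
    calc _ ≤ _ := s1
      _ = t * m₁ + t * h * K₁ := by rw [← e]; field_simp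
      _ ≤ _ := by linarith
  · rw [e] at s2
    have c := n2_triangle ((r N).ev f₂ - ρ.ev f₂) (t • ρ.ev (D.d f₂)) (t • (r N).ev (D.d f₂))
    rw [← smul_sub, n2_rsmul, abs_of_pos ht, n2_sub_comm (ρ.ev _)] at c
    have c2 := mul_le_mul_of_nonneg_left (s3 N le_rfl) ht.le
    have c3 : (N : ℝ) * (h * (t * (m₂ + K₃ * h)) + K₂ * h ^ 2) = t * (t * (m₂ + K₃ * h) + K₂ * h) := by
      rw [← e]; field_simp
    nlinarith [show 0 ≤ t * h * K₁ by positivity]

end Der

end Vale.Agent.P086
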