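import Mathlib

/-! Free group combinatorics. -/

namespace Vale.Agent.P086

open FreeGroup hiding map_mul map_inv map_one

/-- subgroup generated by some letters -/
def sub {Λ : Type*} (T : Set Λ) : Subgroup (FreeGroup Λ) := Subgroup.closure (of '' T)

lemma of_mem {Λ : Type*} {T : Set Λ} {t : Λ} (h : t ∈ T) : of t ∈ sub T :=
  Subgroup.subset_closure ⟨t, h, rfl⟩

lemma sub_le {Λ : Type*} {T : Set Λ} {H : Subgroup (FreeGroup Λ)} (h : ∀ t ∈ T, of t ∈ H) :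
    sub T ≤ H :=
  (Subgroup.closure_le _).2 fun _ ⟨t, ht, e⟩ => e ▸ h t ht

lemma sub_mono {Λ : Type*} {T T' : Set Λ} (h : T ⊆ T') : sub T ≤ sub T' :=
  sub_le fun _ ht => of_mem (h ht)

lemma sub_eq {Λ G : Type*} [Group G] {T : Set Λ} {φ ψ : FreeGroup Λ →* G}
    (h : ∀ t ∈ T, φ (of t) = ψ (of t)) {g} (hg : g ∈ sub T) : φ g = ψ g :=
  sub_le (H := φ.eqLocus ψ) h hg

lemma conj_eq {s : ℕ} {a b : FreeGroup ℕ} (ha : a ∈ sub {t | t ≠ s}) (hb : b ∈ sub {t | t ≠ s})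
    (h : of s * a * (of s)⁻¹ = b) : a = 1 := by
  let ψ : FreeGroup ℕ →* Equiv.Perm (FreeGroup ℕ ⊕ FreeGroup ℕ) :=
    (Equiv.Perm.sumCongrHom _ _).comp ((MonoidHom.inl _ _).comp (MulAction.toPermHom _ _))
  let φ := lift fun t => if t = s then Equiv.sumComm _ _ else ψ (of t)
  have e : ∀ g ∈ sub {t | t ≠ s}, φ g = ψ g := fun g hg =>
    sub_eq (fun t ht => by simp [φ, show t ≠ s from ht]) hg
  have := congrArg (fun g => φ g (.inr 1)) h
  simp only [map_mul, map_inv, e a ha, e b hb] at this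
  simpa [φ, ψ, Equiv.Perm.inv_def] using this

/-- exponent sum -/
def deg (s : ℕ) : FreeGroup ℕ →* Multiplicative ℤ :=
  lift fun t => .ofAdd (if t = s then 1 else 0)

lemma deg_of (s t : ℕ) : deg s (of t) = .ofAdd (if t = s then 1 else 0) := lift_apply_of

lemma deg_sub {s : ℕ} {a : FreeGroup ℕ} (ha : a ∈ sub {t | t ≠ s}) : deg s a = 1 :=
  sub_eq (ψ := 1) (fun t ht => by simp [deg_of, show t ≠ s from ht]) ha

/-- initial segments of the long word -/
def PG (J : ℕ) : ℕ → FreeGroup ℕ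
  | 0 => of J
  | l + 1 => PG J l * of 0 * of (J + (l + 1))

variable {J L : ℕ}

lemma deg_PG (hJ : 2 ≤ J) (i k : ℕ) : deg (J + i) (PG J k) = .ofAdd (if i ≤ k then 1 else 0) := by
  induction k with
  | zero => simp [PG, deg_of]
  | succ k ih =>
    simp only [PG, map_mul, ih, deg_of, ← ofAdd_add]
    congr 1
    split_ifs <;> omega

lemma PG_inj (hJ : 2 ≤ J) {k l k' l' : ℕ} (h : PG J k * (PG J l)⁻¹ = PG J k' * (PG J l')⁻¹) :
    (k = k' ∧ l = l') ∨ (k = l ∧ k' = l') := by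
  have H : ∀ s, ((s ≤ k ↔ s ≤ l) ∧ (s ≤ k' ↔ s ≤ l')) ∨ ((s ≤ k ↔ s ≤ k') ∧ (s ≤ l ↔ s ≤ l')) := by
    intro s
    have := congrArg (fun g => (deg (J + s) g).toAdd) h
    simp only [map_mul, map_inv, deg_PG hJ, toAdd_mul, toAdd_inv, toAdd_ofAdd] at this
    split_ifs at this <;> omega
  have h1 := H k
  have h2 := H l
  have h3 := H k'
  have h4 := H l'
  omega

lemma PG_mem {H : Subgroup (FreeGroup ℕ)} (h0 : of 0 ∈ H) {l : ℕ}
    (h : ∀ i, 0 < i → i ≤ l → of (J + i) ∈ H) : (of J)⁻¹ * PG J l ∈ H := by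
  induction l with
  | zero => simp [PG]
  | succ l ih =>
    rw [PG, ← mul_assoc, ← mul_assoc]
    exact mul_mem (mul_mem (ih fun i h1 h2 => h i h1 (by omega)) h0) (h _ l.succ_pos le_rfl)

lemma PG_mem' {H : Subgroup (FreeGroup ℕ)} (h0 : of 0 ∈ H) {l : ℕ}
    (h : ∀ i ≤ l, of (J + i) ∈ H) : PG J l ∈ H := by
  simpa using mul_mem (h 0 l.zero_le) (PG_mem h0 fun i _ => h i)

lemma PG_one (hJ : 2 ≤ J) (l : ℕ) : PG J l ∈ sub {t | t ≠ 1} :=
  PG_mem' (of_mem zero_ne_one) fun i _ => of_mem (show J + i ≠ 1 by omega)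

/-- the loop -/
def yy (J L : ℕ) : FreeGroup ℕ := of 1 * (PG J L)⁻¹

lemma yy_inj (hJ : 2 ≤ J) {a b : FreeGroup ℕ} (ha : a ∈ sub {t | t ≠ 1}) (hb : b ∈ sub {t | t ≠ 1})
    (h : a * yy J L * a⁻¹ = b * yy J L * b⁻¹) : a = b := by
  have h1 := mul_mem (inv_mem hb) ha
  have hg := PG_one hJ L
  have := conj_eq (mul_mem (mul_mem (inv_mem hg) h1) hg) h1 (by
    rw [show of 1 * ((PG J L)⁻¹ * (b⁻¹ * a) * PG J L) * (of 1)⁻¹ =
      b⁻¹ * (b * yy J L * b⁻¹) * a * (yy J L)⁻¹ by rw [yy]; group, ← h]; group)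
  rw [← inv_mul_eq_one, ← inv_eq_one, mul_inv_rev, inv_inv]
  simpa [mul_inv_eq_iff_eq_mul, mul_eq_one_iff_eq_inv, inv_mul_eq_iff_eq_mul] using this

lemma deg_yy (hJ : 2 ≤ J) : deg 1 (yy J L) = .ofAdd 1 := by
  simp [yy, deg_sub (PG_one hJ L), deg_of]

lemma low_le {s : ℕ} (h : J ≤ s) : sub {t | t < J} ≤ sub {t | t ≠ s} :=
  sub_mono fun t (ht : t < J) => show t ≠ s by omega

lemma PG_free (hJ : 2 ≤ J) {a b : FreeGroup ℕ} (ha : a ∈ sub {t | t < J}) (hb : b ∈ sub {t | t < J})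
    (h : PG J L * a * (PG J L)⁻¹ * b = 1) : a = 1 := by
  have hm : (of J)⁻¹ * PG J L ∈ sub {t | t ≠ J} :=
    PG_mem (of_mem (show 0 ≠ J by omega)) fun i h1 _ => of_mem (show J + i ≠ J by omega)
  have := conj_eq (mul_mem (mul_mem hm (low_le le_rfl ha)) (inv_mem hm)) (inv_mem (low_le le_rfl hb))
    (by rw [eq_inv_of_mul_eq_one_left h |>.symm]; group)
  exact conj_eq_one_iff.1 this

/-- the stripped generator -/
def wb (J L : ℕ) : FreeGroup ℕ := (of J)⁻¹ * of 1 * (of (J + L))⁻¹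

/-- the inner subgroup -/
def inn (J L : ℕ) : Subgroup (FreeGroup ℕ) :=
  Subgroup.closure (insert (wb J L) (of '' {t | t = 0 ∨ (J < t ∧ t < J + L)}))

lemma inn_free (hJ : 2 ≤ J) (hL : 0 < L) {a b : FreeGroup ℕ} (ha : a ∈ inn J L)
    (hb : b ∈ sub {t | t < J}) (h : (of (J + L))⁻¹ * a * (of (J + L))⁻¹⁻¹ * b = 1) : a = 1 := by
  let ψ : FreeGroup ℕ →* FreeGroup ℕ := lift fun t => if t = J then of 1 * (of (J + L))⁻¹ else of t
  have h1 : ψ b = b := sub_eq (ψ := .id _) (fun t (ht : t < J) => by simp [ψ, ht.ne]) hb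
  have h2 : ψ a ∈ sub {t | t ≠ J + L} := (Subgroup.closure_le ((sub _).comap ψ)).2 (by
    rintro _ (rfl | ⟨t, ht, rfl⟩)
    · simp [ψ, wb, hL.ne', show 1 ≠ J by omega]
    · simpa [ψ, show t ≠ J by rcases ht with h | h <;> omega] using
        of_mem (show t ≠ J + L by rcases ht with h | h <;> omega)) ha
  have h3 := congrArg ψ h
  simp only [map_mul, map_inv, h1, map_one, show ψ (of (J + L)) = of (J + L) by
    simp [ψ, hL.ne']] at h3
  have := conj_eq (inv_mem (low_le (J.le_add_right L) hb)) h2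
    (by rw [eq_inv_of_mul_eq_one_left h3 |>.symm]; group)
  rw [inv_eq_one.1 this, mul_one] at h
  exact conj_eq_one_iff.1 h

variable {Λ : Type*}

/-- conjugates -/
def bb (a b : Λ) : ℕ → FreeGroup Λ
  | 0 => of b
  | j + 1 => of a * bb a b j * (of a)⁻¹

/-- the embedding -/
def emb (a b x w : Λ) : FreeGroup ℕ →* FreeGroup Λ := lift fun
  | 0 => of x
  | 1 => of w
  | j + 2 => bb a b j

lemma bb_mem {a b : Λ} {H : Subgroup (FreeGroup Λ)} (ha : of a ∈ H) (hb : of b ∈ H) (j : ℕ) :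
    bb a b j ∈ H := by
  induction j with
  | zero => exact hb
  | succ j ih => exact mul_mem (mul_mem ha ih) (inv_mem ha)

lemma emb_inj {a b x w : Λ} (h1 : b ≠ a) (h2 : x ≠ a) (h3 : w ≠ a) (h4 : x ≠ b) (h5 : w ≠ b)
    (h6 : w ≠ x) : Function.Injective (emb a b x w) := by
  classical
  let σ := freeGroupCongr ((Equiv.addRight (1 : ℤ)).prodCongr (Equiv.refl Λ))
  let l := MulAction.toPermHom (FreeGroup (ℤ × Λ)) (FreeGroup (ℤ × Λ))
  let φ : FreeGroup Λ →* Equiv.Perm (FreeGroup (ℤ × Λ)) :=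
    lift fun s => if s = a then σ.toEquiv else l (of (0, s))
  let e : ℕ → ℤ × Λ := fun
    | 0 => (0, x)
    | 1 => (0, w)
    | j + 2 => (j, b)
  have hb : ∀ j : ℕ, φ (bb a b j) = l (of (j, b)) := fun j => by
    induction j with
    | zero => simp [bb, φ, h1]
    | succ j ih =>
      simp only [bb, map_mul, map_inv, ih]
      ext k
      simp [φ, l, σ, Equiv.Perm.inv_def, map.comp, Prod.map, Function.comp_def]
  have : φ.comp (emb a b x w) = l.comp (map e) := ext_hom _ _ fun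
    | 0 => by simp [emb, φ, e, h2]
    | 1 => by simp [emb, φ, e, h3]
    | j + 2 => by simp [emb, e, hb]
  refine Function.Injective.of_comp (f := φ) ?_
  rw [← MonoidHom.coe_comp, this, MonoidHom.coe_comp]
  refine MulAction.toPerm_injective.comp (map_injective ?_)
  rintro (_ | _ | i) (_ | _ | j) h <;> simp_all [e]

end Vale.Agent.P086
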