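import Vale.Agent.P086.Exp
import Vale.Agent.P086.Grp

/-! The macroscopic step. -/

namespace Vale.Agent.P086

open scoped ComplexConjugate InnerProductSpace BigOperators Nat
open Filter Topology Vale.Agent.P085 Finset
open FreeGroup (of)

variable {Λ : Type*} {x w : Λ} {J L : ℕ}

/-- a supply of free letters -/
structure Emb (x w : Λ) where
  ι : FreeGroup ℕ →* FreeGroup Λ
  inj : Function.Injective ι
  ne : w ≠ x
  h0 : ι (of 0) = of x
  h1 : ι (of 1) = of w
  h2 : ∀ j, 2 ≤ j → ι (of j) ∈ sub {s | s ≠ x ∧ s ≠ w}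

namespace Emb
variable (E : Emb x w)

/-- basis elements -/
noncomputable def o : FreeGroup ℕ →* RG (FreeGroup Λ) := oo.comp E.ι

lemma o_def (g) : E.o g = oo (E.ι g) := rfl

/-- the field of `w` -/
noncomputable def KK (J L : ℕ) : RG (FreeGroup Λ) := E.o (yy J L) - E.o (yy J L)⁻¹

/-- the field of `x` -/
noncomputable def SS (J L : ℕ) : RG (FreeGroup Λ) :=
  (1 / L : ℝ) • ∑ l ∈ range L, E.o (PG J l)⁻¹ * E.KK J L * E.o (PG J l)

/-- the field of the long word -/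
noncomputable def CG (J L l : ℕ) : RG (FreeGroup Λ) :=
  ∑ k ∈ range l, E.o (PG J k) * E.SS J L * E.o (PG J k)⁻¹

lemma SS_eq : E.SS J L = (1 / L : ℝ) • (∑ l ∈ range L, E.o ((PG J l)⁻¹ * yy J L * (PG J l)⁻¹⁻¹) -
    ∑ l ∈ range L, E.o ((PG J l)⁻¹ * (yy J L)⁻¹ * (PG J l)⁻¹⁻¹)) := by
  simp only [SS, KK, mul_sub, sub_mul, sum_sub_distrib, map_mul, inv_inv]

lemma CG_eq : E.CG J L L = (1 / L : ℝ) • (∑ p ∈ range L ×ˢ range L,
    E.o (PG J p.1 * (PG J p.2)⁻¹ * yy J L * (PG J p.1 * (PG J p.2)⁻¹)⁻¹) - ∑ p ∈ range L ×ˢ range L,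
    E.o (PG J p.1 * (PG J p.2)⁻¹ * (yy J L)⁻¹ * (PG J p.1 * (PG J p.2)⁻¹)⁻¹)) := by
  simp only [CG, SS, KK, mul_sub, sub_mul, sum_sub_distrib, map_mul, inv_inv, mul_inv_rev,
    mul_smul_comm, smul_mul_assoc, ← smul_sum, mul_sum, sum_mul, sum_product, mul_assoc]

section
variable {E} {d : RG (FreeGroup Λ) →ₗ[ℝ] RG (FreeGroup Λ)}
  (h : ∀ f g, d (f * g) = d f * g + f * d g)
  (hx : d (oo (of x)) = E.SS J L * oo (of x)) (hw : d (oo (of w)) = E.KK J L * oo (of w))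
  (hb : ∀ g ∈ sub {s | s ≠ x ∧ s ≠ w}, d (oo g) = 0) (hJ : 2 ≤ J)

include h hx hb hJ in
lemma d_PG (l : ℕ) : d (E.o (PG J l)) = E.CG J L l * E.o (PG J l) := by
  induction l with
  | zero => simpa [CG, PG, o_def] using hb _ (E.h2 J hJ)
  | succ l ih =>
    have e : E.o (PG J l)⁻¹ * E.o (PG J l) = 1 := by rw [← map_mul, inv_mul_cancel, map_one]
    rw [PG, map_mul E.o, map_mul E.o, h, h, ih, E.o_def (of (J + _)), hb _ (E.h2 _ (by omega)),
      E.o_def (of 0), E.h0, hx, CG, CG, sum_range_succ]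
    simp only [mul_zero, add_zero, add_mul, mul_assoc]
    rw [← mul_assoc (E.o (PG J l)⁻¹), e, one_mul]

include h hx hw hb hJ in
lemma d_tr (hL : 0 < L) (hr : ∀ f, d (rev f) = rev (d f)) (f) : t0 (d f) = 0 := by
  classical
  have c1 : ∀ g, t0 (d (oo g⁻¹)) = t0 (d (oo g)) := fun g => by rw [← rev_oo, hr, t0_rev]
  have c2 : ∀ a g, t0 (d (oo (a * g * a⁻¹))) = t0 (d (oo g)) := fun a g => by
    have : ∀ a b, t0 (d (oo (a * b))) = t0 (d (oo (b * a))) := fun a b => by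
      simp only [map_mul, h, map_add, t0_comm (oo a), t0_comm (oo b), add_comm]
    rw [this, inv_mul_cancel_left]
  have n1 : ∀ a : FreeGroup ℕ, t0 (E.o (yy J L * (a * yy J L * a⁻¹))) = 0 := fun a =>
    t0_ne ((map_ne_one_iff _ E.inj).2 fun e => by
      have := congrArg (deg 1) e
      simp only [map_mul, map_inv, deg_yy hJ, mul_inv_cancel_comm, map_one] at this
      cases this)
  have n2 : ∀ k l : ℕ, t0 (E.o (yy J L * (PG J k * (PG J l)⁻¹ * (yy J L)⁻¹ *
      (PG J k * (PG J l)⁻¹)⁻¹))) = if k = l then 1 else 0 := fun k l => by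
    split_ifs with e
    · simp [e]
    · refine t0_ne ((map_ne_one_iff _ E.inj).2 fun e' => e ?_)
      have := yy_inj hJ (mul_mem (PG_one hJ k) (inv_mem (PG_one hJ l))) (one_mem _) (L := L)
        (by rw [one_mul, inv_one, mul_one, eq_comm, ← mul_inv_eq_one, ← e']; group)
      have := PG_inj hJ (this.trans (mul_inv_cancel (PG J 0)).symm)
      omega
  have c3 : t0 (d (E.o (yy J L))) = 0 := by
    have e : d (E.o (yy J L)) = E.KK J L * E.o (yy J L) - E.o (yy J L) * E.CG J L L := by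
      rw [yy, map_mul, h, E.o_def (of 1), E.h1, hw, E.o_def _⁻¹, map_inv, leib_inv h, ← o_def,
        d_PG h hx hb hJ, o_def]
      simp [mul_assoc, oo_mul_inv, sub_eq_add_neg]
    have := n1 1
    rw [one_mul, inv_one, mul_one] at this
    rw [e, CG_eq, KK]
    simp only [sub_mul, mul_sub, mul_smul_comm, mul_sum, ← map_mul, map_sub, map_smul, map_sum, n1,
      n2, this, sum_product, sum_ite_eq, inv_mul_cancel, map_one, t0_one]
    simp +contextual [hL.ne']
  let W := Submodule.span ℝ (oo '' {g | IsConj (E.ι (yy J L)) g ∨ IsConj (E.ι (yy J L))⁻¹ g})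
  have w1 : ∀ a, ∀ f ∈ W, oo a * f * oo a⁻¹ ∈ W := fun a f hf =>
    (Submodule.span_le (p := W.comap (LinearMap.mulRight ℝ (oo a⁻¹) ∘ₗ
      LinearMap.mulLeft ℝ (oo a)))).2 (by
        rintro _ ⟨g, hg, rfl⟩
        have : IsConj g (a * g * a⁻¹) := isConj_iff.2 ⟨a, rfl⟩
        exact Submodule.subset_span ⟨_, hg.imp (·.trans this) (·.trans this), by simp⟩) hf
  have w2 : E.KK J L ∈ W := sub_mem (Submodule.subset_span ⟨_, .inl (.refl _), rfl⟩)
    (Submodule.subset_span ⟨_, .inr (.refl _), by simp [o_def]⟩)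
  have w3 : E.SS J L ∈ W := W.smul_mem _ (sum_mem fun l _ => by
    simpa [o_def] using w1 (E.ι (PG J l))⁻¹ _ w2)
  have w4 : ∀ g, d (oo g) * oo g⁻¹ ∈ W := fun g => by
    induction g using FreeGroup.induction_on with
    | C1 => simp [leib_one h]
    | of s =>
      by_cases e1 : s = x
      · rwa [e1, hx, mul_assoc, oo_mul_inv, mul_one]
      by_cases e2 : s = w
      · rwa [e2, hw, mul_assoc, oo_mul_inv, mul_one]
      · simp [hb _ (of_mem ⟨e1, e2⟩)]
    | inv_of s ih => simpa [leib_inv h, mul_assoc] using neg_mem (w1 (of s)⁻¹ _ ih)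
    | mul a b ha hb =>
      convert add_mem ha (w1 a _ hb) using 1
      simp only [mul_inv_rev, map_mul, h, add_mul, mul_assoc]
      rw [← mul_assoc (oo b), oo_mul_inv, one_mul]
  induction f using ind with
  | h1 g =>
    by_cases hg : IsConj (E.ι (yy J L)) g⁻¹ ∨ IsConj (E.ι (yy J L))⁻¹ g⁻¹
    · rw [← c1]
      rcases hg with hg | hg <;> obtain ⟨a, ha⟩ := isConj_iff.1 hg <;> rw [← ha, c2]
      · exact c3
      · exact (c1 _).trans c3
    · have := (Submodule.span_le (p := LinearMap.ker (t0 ∘ₗ LinearMap.mulRight ℝ (oo g)))).2 (by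
        rintro _ ⟨a, ha, rfl⟩
        simpa [← map_mul] using t0_ne (g := a * g) fun e => hg (eq_inv_of_mul_eq_one_left e ▸ ha))
        (w4 g)
      simpa [mul_assoc, oo_inv_mul] using this
  | h2 a b ha hb => simp [ha, hb]
  | h3 r a ha => simp [ha]

end

lemma exists_der (hJ : 2 ≤ J) (hL : 0 < L) : ∃ D : Der (FreeGroup Λ),
    D.d (oo (of x)) = E.SS J L * oo (of x) ∧ D.d (oo (of w)) = E.KK J L * oo (of w) ∧
      ∀ g ∈ sub {s | s ≠ x ∧ s ≠ w}, D.d (oo g) = 0 := by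
  classical
  obtain ⟨d, h, hc⟩ := exists_leib fun s => if s = x then E.SS J L else if s = w then E.KK J L else 0
  have hK : rev (E.KK J L) = -E.KK J L := by simp [KK, o_def]
  have hr := leib_rev h hc fun s => by
    split_ifs
    · simp [SS, rev_mul, hK, o_def, mul_assoc]
    · exact hK
    · simp
  obtain ⟨C, hC, hb⟩ := leib_bd h ((Set.toFinite {x, w}).subset fun s hs => by
    by_contra e
    simp only [Set.mem_insert_iff, Set.mem_singleton_iff, not_or] at e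
    simp [hc, e] at hs)
  have h1 : d (oo (of x)) = E.SS J L * oo (of x) := by simp [hc]
  have h2 : d (oo (of w)) = E.KK J L * oo (of w) := by simp [hc, E.ne]
  have h3 : ∀ g ∈ sub {s | s ≠ x ∧ s ≠ w}, d (oo g) = 0 := fun g hg => by
    induction hg using Subgroup.closure_induction with
    | mem g hg => obtain ⟨s, hs, rfl⟩ := hg; simp [hc, hs.1, hs.2]
    | one => simp [leib_one h]
    | mul a b _ _ ha hb => simp [h, ha, hb]
    | inv a _ ha => simp [leib_inv h, ha]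
  exact ⟨⟨d, h, hr, d_tr h h1 h2 h3 hJ hL hr, C, hC, hb⟩, h1, h2, h3⟩

lemma SS_mem {H : Subgroup (FreeGroup Λ)} (h : ∀ l < L, E.ι ((PG J l)⁻¹ * yy J L * PG J l) ∈ H)
    (hx : of x ∈ H) : E.SS J L * oo (of x) ∈ Submodule.span ℝ (oo '' (H : Set (FreeGroup Λ))) := by
  rw [SS_eq, smul_mul_assoc, sub_mul, sum_mul, sum_mul]
  refine Submodule.smul_mem _ _ (sub_mem (sum_mem fun l hl => ?_) (sum_mem fun l hl => ?_))
  · exact Submodule.subset_span ⟨_, mul_mem (h l (mem_range.1 hl)) hx, by simp [o_def]⟩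
  · exact Submodule.subset_span ⟨_, mul_mem (inv_mem (h l (mem_range.1 hl))) hx, by
      simp [o_def, mul_assoc]⟩

variable {A : Type*} [CStarAlgebra A] [TrA A]

lemma n2_bd {ρ : Rep (FreeGroup Λ) A} (hρ : ρ.Free) (hJ : 2 ≤ J) (hL : 0 < L) :
    n2 (ρ.ev (E.KK J L)) ≤ 2 ∧ n2 (ρ.ev (E.SS J L)) ≤ 2 / √L ∧ n2 (ρ.ev (E.CG J L L)) ≤ 4 := by
  have hL' : (0 : ℝ) < L := by exact_mod_cast hL
  have key : ∀ z : FreeGroup ℕ, (∀ a ∈ sub {t | t ≠ 1}, ∀ b ∈ sub {t | t ≠ 1},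
      a * z * a⁻¹ = b * z * b⁻¹ → a = b) →
      n2 (ρ.ev (∑ l ∈ range L, E.o ((PG J l)⁻¹ * z * (PG J l)⁻¹⁻¹))) ≤ √L ∧
      n2 (ρ.ev (∑ p ∈ range L ×ˢ range L,
        E.o (PG J p.1 * (PG J p.2)⁻¹ * z * (PG J p.1 * (PG J p.2)⁻¹)⁻¹))) ≤ 2 * L := fun z hz => by
    simp only [map_sum, o_def, Rep.ev_oo]
    constructor
    · refine Real.le_sqrt_of_sq_le (((hρ.comp E.inj).n2_sum _ fun k _ l _ e => ?_).trans
        (by simp)).le
      have := inv_injective (hz _ (inv_mem (PG_one hJ k)) _ (inv_mem (PG_one hJ l)) e)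
      have := PG_inj hJ (congrArg (· * (PG J 0)⁻¹) this)
      omega
    · rw [← diag_union_offDiag, sum_union (disjoint_diag_offDiag _), two_mul]
      refine (n2_add_le _ _).trans (add_le_add ((n2_sum_le _ _).trans (by
        simp only [Rep.n2_eq]; simp))
        (le_of_sq_le_sq (((hρ.comp E.inj).n2_sum _ fun p hp q hq e => ?_).trans_le ?_) hL'.le))
      · have := PG_inj hJ (hz _ (mul_mem (PG_one hJ _) (inv_mem (PG_one hJ _))) _
          (mul_mem (PG_one hJ _) (inv_mem (PG_one hJ _))) e)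
        have := (mem_offDiag.1 hp).2.2
        ext <;> omega
      · rw [offDiag_card, card_range, sq]
        exact_mod_cast Nat.sub_le _ _
  obtain ⟨a1, a2⟩ := key _ fun a ha b hb => yy_inj (L := L) hJ ha hb
  obtain ⟨a3, a4⟩ := key (yy J L)⁻¹ fun a ha b hb e => yy_inj (L := L) hJ ha hb
    (inv_injective (by simpa [mul_assoc] using e))
  refine ⟨?_, ?_, ?_⟩
  · rw [KK, map_sub]
    refine (n2_sub_le _ _).trans ?_
    simp only [o_def, Rep.ev_oo, Rep.n2_eq, one_add_one_eq_two, le_refl]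
  · rw [SS_eq, map_smul, n2_rsmul, map_sub, abs_of_pos (by positivity)]
    refine (mul_le_mul_of_nonneg_left ((n2_sub_le _ _).trans (add_le_add a1 a3))
      (by positivity)).trans_eq ?_
    have := Real.mul_self_sqrt hL'.le
    field_simp
    nlinarith
  · rw [CG_eq, map_smul, n2_rsmul, map_sub, abs_of_pos (by positivity)]
    refine (mul_le_mul_of_nonneg_left ((n2_sub_le _ _).trans (add_le_add a2 a4))
      (by positivity)).trans_eq ?_
    field_simp
    ring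

/-- admissible subgroups -/
def HT (x w : Λ) (T : Set (FreeGroup Λ)) : Subgroup (FreeGroup Λ) :=
  Subgroup.closure (insert (of x) (insert (of w) T))

lemma mac (hJ : 2 ≤ J) (hL : 0 < L) {t η : ℝ} (ht : 0 < t) (hη : 0 < η)
    {ρ : Rep (FreeGroup Λ) A} (hρ : ρ.Free) : ∃ ρ' : Rep (FreeGroup Λ) A, ρ'.Free ∧
      (∀ T ⊆ (sub {s | s ≠ x ∧ s ≠ w} : Set (FreeGroup Λ)), (∀ j, 2 ≤ j → j ≤ J + L → E.ι (of j) ∈ T) →
        ρ'.cl (HT x w T) = ρ.cl (HT x w T)) ∧
      (∀ g ∈ sub {s | s ≠ x ∧ s ≠ w}, ρ'.π g = ρ.π g) ∧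
      (ρ'.comp E.ι).cl (inn J L) = (ρ.comp E.ι).cl (inn J L) ∧
      n2 (ρ'.π (of x) - ρ.π (of x)) ≤ t * (2 / √L) + η ∧
      n2 (ρ.π (of w) - ρ'.π (of w) - t • (ρ'.π (E.ι (PG J L)) -
        ρ'.π (of w) * star (ρ'.π (E.ι (PG J L))) * ρ'.π (of w))) ≤ 2 * t ^ 2 * 12 + η := by
  obtain ⟨D, hx, hw, hb⟩ := E.exists_der hJ hL
  have e : D.d (oo (of w)) = oo (of w) * oo (E.ι (PG J L))⁻¹ * oo (of w) - oo (E.ι (PG J L)) := by
    simp [hw, KK, o_def, yy, E.h1, sub_mul, mul_assoc, oo_inv_mul]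
  obtain ⟨ρ', a1, a2, a3, a4, a5⟩ := D.flow (m₁ := 2 / √L) (m₂ := 12) ht hη (oo (of x)) (oo (of w))
    (fun ρ hρ => by
      rw [hx, map_mul, Rep.ev_oo, n2_mul_unitary (ρ.uni _)]; exact (E.n2_bd hρ hJ hL).2.1)
    (fun ρ hρ => by
      obtain ⟨b1, -, b2⟩ := E.n2_bd hρ hJ hL
      have := d_PG D.leib hx hb hJ L
      rw [o_def] at this
      rw [e, map_sub, D.leib, D.leib, leib_inv D.leib, this, hw]
      simp only [map_sub, map_add, map_mul, map_neg, Rep.ev_oo, add_mul, mul_assoc, mul_neg,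
        neg_mul]
      refine (n2_sub_le _ _).trans (le_trans (add_le_add ((n2_add_le _ _).trans
        (add_le_add (n2_add_le _ _) le_rfl)) le_rfl) ?_)
      simp only [n2_neg, n2_unitary_mul (ρ.uni _)]
      simp only [← mul_assoc, n2_mul_unitary (ρ.uni _)]
      linarith) hρ
  refine ⟨ρ', a1, fun T hT h => a2 _ (D.inv_closure ?_), fun g hg => a3 g (hb g hg), ?_, by
    simpa using a4, ?_⟩
  · have m0 : of x ∈ HT x w T := Subgroup.subset_closure (.inl rfl)
    have m1 : of w ∈ HT x w T := Subgroup.subset_closure (.inr (.inl rfl))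
    have m2 : ∀ l ≤ L, E.ι (PG J l) ∈ HT x w T := fun l hl =>
      PG_mem' (H := (HT x w T).comap E.ι) (E.h0 ▸ m0 : E.ι (of 0) ∈ _) fun i hi =>
        Subgroup.subset_closure (.inr (.inr (h _ (by omega) (by omega))))
    rintro _ (rfl | rfl | hg)
    · rw [hx]
      exact E.SS_mem (fun l hl => by
        simpa [yy, E.h1, HT] using mul_mem (mul_mem (inv_mem (m2 l hl.le))
          (mul_mem m1 (inv_mem (m2 L le_rfl)))) (m2 l hl.le)) m0
    · rw [e, ← map_mul, ← map_mul]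
      exact sub_mem (Submodule.subset_span ⟨_, mul_mem (mul_mem m1 (inv_mem (m2 L le_rfl))) m1, rfl⟩)
        (Submodule.subset_span ⟨_, m2 L le_rfl, rfl⟩)
    · rw [hb _ (hT hg)]; exact zero_mem _
  · rw [← Rep.cl_map, ← Rep.cl_map]
    refine a2 _ ?_
    have m0 : of 0 ∈ inn J L := Subgroup.subset_closure (.inr ⟨0, .inl rfl, rfl⟩)
    have m1 : wb J L ∈ inn J L := Subgroup.subset_closure (.inl rfl)
    have m2 : ∀ l < L, (of J)⁻¹ * PG J l ∈ inn J L := fun l hl => PG_mem m0 fun i h1 h2 =>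
      Subgroup.subset_closure (.inr ⟨_, .inr ⟨by omega, by omega⟩, rfl⟩)
    have m3 : (of J)⁻¹ * PG J L * (of (J + L))⁻¹ ∈ inn J L := by
      obtain ⟨L, rfl⟩ := Nat.exists_eq_succ_of_ne_zero hL.ne'
      simpa [PG, mul_assoc] using mul_mem (m2 L L.lt_succ_self) m0
    have := D.inv_closure (s := E.ι '' insert (wb J L) (of '' {t | t = 0 ∨ (J < t ∧ t < J + L)}))
    rw [← MonoidHom.map_closure] at this
    refine this ?_
    rintro _ ⟨_, rfl | ⟨s, rfl | hs, rfl⟩, rfl⟩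
    · have b1 := hb _ (inv_mem (E.h2 J hJ))
      have b2 := hb _ (inv_mem (E.h2 (J + L) (by omega)))
      simp only [wb, map_mul, map_inv, D.leib, b1, b2, E.h1, e, zero_mul, mul_zero, add_zero,
        zero_add, mul_sub, sub_mul]
      exact sub_mem (Submodule.subset_span ⟨_, ⟨_, mul_mem (mul_mem m1 (inv_mem m3)) m1, rfl⟩, by
        simp [wb, E.h1, mul_assoc]⟩) (Submodule.subset_span ⟨_, ⟨_, m3, rfl⟩, by simp⟩)
    · rw [E.h0, hx]
      refine E.SS_mem (fun l hl => ⟨_, mul_mem (mul_mem (inv_mem (m2 l hl))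
        (mul_mem m1 (inv_mem m3))) (m2 l hl), ?_⟩) ⟨_, m0, E.h0⟩
      congr 1
      simp [wb, yy, mul_assoc]
    · rw [hb _ (E.h2 s (by omega))]; exact zero_mem _
  · rw [e] at a5
    rw [← n2_neg]
    convert a5 using 2
    simp only [map_sub, map_mul, Rep.ev_oo, ρ'.st]
    module

end Emb

end Vale.Agent.P086
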