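import Vale.Agent.P086.Cap

/-! Three free generators. -/

namespace Vale.Agent.P086

open scoped ComplexConjugate InnerProductSpace BigOperators Nat
open Filter Topology Vale.Agent.P085 Finset
open FreeGroup (of)

variable {A : Type*} [CStarAlgebra A] [TrA A] {Λ : Type*}

lemma stable {T : Set Λ} {ρ : Rep (FreeGroup Λ) A} {z : A} {ε : ℝ}
    (h : ∃ q ∈ ρ.cl (sub T), n2 (z - q) < ε) : ∀ᶠ r in 𝓝 (0 : ℝ), ∀ ρ' : Rep (FreeGroup Λ) A,
      (∀ s ∈ T, n2 (ρ.π (of s) - ρ'.π (of s)) ≤ r) → ∃ q ∈ ρ'.cl (sub T), n2 (z - q) < ε := by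
  obtain ⟨q, hq, h1⟩ := h
  obtain ⟨q', hq', h2⟩ := ρ.cl_near hq (sub_pos.2 h1)
  have key : ∃ K : ℝ, ∀ (ρ' : Rep (FreeGroup Λ) A) (r : ℝ),
      (∀ s ∈ T, n2 (ρ.π (of s) - ρ'.π (of s)) ≤ r) →
        ∃ q ∈ ρ'.cl (sub T), n2 (q' - q) ≤ K * r := by
    clear h2
    induction hq' using Submodule.span_induction with
    | mem _ hg =>
      obtain ⟨g, hg, rfl⟩ := hg
      suffices ∃ K : ℝ, ∀ (ρ' : Rep (FreeGroup Λ) A) (r : ℝ),
          (∀ s ∈ T, n2 (ρ.π (of s) - ρ'.π (of s)) ≤ r) → n2 (ρ.π g - ρ'.π g) ≤ K * r from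
        this.imp fun K hK ρ' r h => ⟨_, ρ'.mem_cl hg, hK ρ' r h⟩
      induction hg using Subgroup.closure_induction with
      | mem _ hg => obtain ⟨s, hs, rfl⟩ := hg; exact ⟨1, fun ρ' r h => by simpa using h s hs⟩
      | one => exact ⟨0, by simp⟩
      | mul a b _ _ ha hb =>
        obtain ⟨K, hK⟩ := ha
        obtain ⟨K', hK'⟩ := hb
        refine ⟨K + K', fun ρ' r h => (n2_triangle _ (ρ'.π a * ρ.π b) _).trans ?_⟩
        rw [map_mul, map_mul, ← sub_mul, ← mul_sub, n2_mul_unitary (ρ.uni _),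
          n2_unitary_mul (ρ'.uni _), add_mul]
        exact add_le_add (hK ρ' r h) (hK' ρ' r h)
      | inv a _ ha => simpa only [← Rep.st, ← star_sub, n2_star] using ha
    | zero => exact ⟨0, fun ρ' r _ => ⟨0, zero_mem _, by simp⟩⟩
    | add a b _ _ ha hb =>
      obtain ⟨K, hK⟩ := ha
      obtain ⟨K', hK'⟩ := hb
      refine ⟨K + K', fun ρ' r h => ?_⟩
      obtain ⟨p, hp, a1⟩ := hK ρ' r h
      obtain ⟨p', hp', a2⟩ := hK' ρ' r h
      refine ⟨p + p', add_mem hp hp', ?_⟩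
      rw [add_sub_add_comm, add_mul]
      exact (n2_add_le _ _).trans (add_le_add a1 a2)
    | smul c a _ ha =>
      obtain ⟨K, hK⟩ := ha
      refine ⟨‖c‖ * K, fun ρ' r h => ?_⟩
      obtain ⟨p, hp, a1⟩ := hK ρ' r h
      refine ⟨c • p, SMulMemClass.smul_mem c hp, ?_⟩
      rw [← smul_sub, n2_smul, mul_assoc]
      gcongr
  obtain ⟨K, hK⟩ := key
  have : Tendsto (fun r : ℝ => K * r) (𝓝 0) (𝓝 0) := by
    simpa using (tendsto_id (x := 𝓝 (0 : ℝ))).const_mul K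
  filter_upwards [this.eventually (gt_mem_nhds (sub_pos.2 h2))] with r hr ρ' h
  obtain ⟨p, hp, h3⟩ := hK ρ' r h
  exact ⟨p, hp, by linarith [n2_triangle z q p, n2_triangle q q' p]⟩

variable [Cmp A] {a b x : Λ}

lemma cap_one (h1 : b ≠ a) (h2 : x ≠ a) (h4 : x ≠ b) {w : Λ} (hw : w ∉ ({a, b, x} : Set Λ))
    {ρ : Rep (FreeGroup Λ) A} (hρ : ρ.Free) {ε : ℝ} (hε : 0 < ε) :
    ∃ ρ' : Rep (FreeGroup Λ) A, ρ'.Free ∧ ρ'.cl ⊤ = ρ.cl ⊤ ∧
      (∀ s, s ≠ x → s ≠ w → ρ'.π (of s) = ρ.π (of s)) ∧ n2 (ρ'.π (of x) - ρ.π (of x)) ≤ ε ∧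
      ∃ q ∈ ρ'.cl (sub {a, b, x}), n2 (ρ.π (of w) - q) < ε := by
  simp only [Set.mem_insert_iff, Set.mem_singleton_iff, not_or] at hw
  let E : Emb x w := ⟨emb a b x w, emb_inj h1 h2 hw.1 h4 hw.2.1 hw.2.2, hw.2.2, by simp [emb],
    by simp [emb], fun j hj => by
      obtain ⟨j, rfl⟩ := Nat.exists_eq_add_of_le' hj
      simpa [emb] using bb_mem (of_mem (T := {s | s ≠ x ∧ s ≠ w}) ⟨h2.symm, Ne.symm hw.1⟩)
        (of_mem (T := {s | s ≠ x ∧ s ≠ w}) ⟨h4.symm, Ne.symm hw.2.1⟩) j⟩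
  have hθ : 0 < min 1 ((ε / 2) ^ 2) := by positivity
  set θ := min 1 ((ε / 2) ^ 2) with hd
  obtain ⟨n, hn⟩ := exists_nat_ge (1 / ((θ ^ 2 / 1800) ^ 2 * θ ^ 2 / 2))
  obtain ⟨J, -, h⟩ := E.cap (A := A) hθ (min_le_left _ _) n ε hε
  obtain ⟨ρ', a1, a2, a3, a4, p, hp, a5⟩ := h ρ hρ
  have e : Emb.HT x w (sub {s | s ≠ x ∧ s ≠ w}) = ⊤ := by
    rw [eq_top_iff, ← FreeGroup.closure_range_of, Subgroup.closure_le]
    rintro _ ⟨s, rfl⟩
    refine Subgroup.subset_closure ?_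
    by_cases e1 : s = x
    · exact .inl (e1 ▸ rfl)
    by_cases e2 : s = w
    · exact .inr (.inl (e2 ▸ rfl))
    · exact .inr (.inr (of_mem ⟨e1, e2⟩))
  refine ⟨ρ', a1, e ▸ a2 _ subset_rfl fun j hj _ => E.h2 j hj, fun s h h' => a3 _ (of_mem ⟨h, h'⟩),
    a4, p, ?_, ?_⟩
  · rw [← Rep.cl_map] at hp
    refine Rep.cl_mono _ (Subgroup.map_le_iff_le_comap.2 (sub_le fun t ht => ?_)) hp
    rcases t with _ | _ | t
    · simpa [E, emb] using of_mem (by simp)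
    · exact absurd rfl ht.2
    · simpa [E, emb] using bb_mem (of_mem (by simp)) (of_mem (by simp)) t
  · rw [div_le_iff₀ (by positivity)] at hn
    rw [max_eq_left (by linarith)] at a5
    exact (le_of_sq_le_sq (a5.trans (min_le_right _ _)) (by positivity)).trans_lt (half_lt_self hε)

lemma cap_fin (h1 : b ≠ a) (h2 : x ≠ a) (h4 : x ≠ b) (T : Finset Λ)
    {ρ : Rep (FreeGroup Λ) A} (hρ : ρ.Free) {ε : ℝ} (hε : 0 < ε) :
    ∃ ρ' : Rep (FreeGroup Λ) A, ρ'.Free ∧ ρ'.cl ⊤ = ρ.cl ⊤ ∧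
      (∀ s, s ≠ x → s ∉ T ∨ s = a ∨ s = b → ρ'.π (of s) = ρ.π (of s)) ∧
      n2 (ρ'.π (of x) - ρ.π (of x)) < ε ∧
      ∀ s ∈ T, ∃ q ∈ ρ'.cl (sub {a, b, x}), n2 (ρ.π (of s) - q) < ε := by
  classical
  induction T using Finset.induction_on with
  | empty => exact ⟨ρ, hρ, rfl, fun _ _ _ => rfl, by simpa, by simp⟩
  | insert w T hw ih =>
  obtain ⟨ρ₁, a1, a2, a3, a4, a5⟩ := ih
  by_cases h : w ∈ ({a, b, x} : Set Λ)
  · refine ⟨ρ₁, a1, a2, fun s h h' => a3 s h (h'.imp_left (mt mem_insert_of_mem)), a4,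
      forall_mem_insert _ _ _ |>.2 ⟨⟨_, ρ₁.mem_cl (of_mem h), ?_⟩, a5⟩⟩
    by_cases e : w = x
    · rwa [e, n2_sub_comm]
    · simpa [a3 w e (.inl hw)]
  obtain ⟨r, ⟨r1, r2, r3⟩, r0⟩ := ((((eventually_all_finset T).2 fun s hs => stable (a5 s hs)).and
    ((gt_mem_nhds (sub_pos.2 a4) : ∀ᶠ r in 𝓝 (0 : ℝ), _).and (gt_mem_nhds hε))).filter_mono
      nhdsWithin_le_nhds |>.and (self_mem_nhdsWithin (s := Set.Ioi 0))).exists
  obtain ⟨ρ₂, b1, b2, b3, b4, q, hq, b5⟩ := cap_one h1 h2 h4 h a1 r0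
  simp only [Set.mem_insert_iff, Set.mem_singleton_iff, not_or] at h
  refine ⟨ρ₂, b1, b2.trans a2, fun s h h' => (b3 s h ?_).trans
    (a3 s h (h'.imp_left (mt mem_insert_of_mem))), ?_, forall_mem_insert _ _ _ |>.2
      ⟨⟨q, hq, a3 w h.2.2 (.inl hw) ▸ b5.trans r3⟩, fun s hs => r1 s hs ρ₂ ?_⟩⟩
  · rintro rfl
    simp_all
  · linarith [n2_triangle (ρ₂.π (of x)) (ρ₁.π (of x)) (ρ.π (of x))]
  · rintro s (rfl | rfl | rfl)
    · simpa [b3 s h2.symm (Ne.symm h.1)] using r0.le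
    · simpa [b3 s h4.symm (Ne.symm h.2.1)] using r0.le
    · rwa [n2_sub_comm]

lemma cap_top (h1 : b ≠ a) (h2 : x ≠ a) (h4 : x ≠ b) {ρ : Rep (FreeGroup Λ) A} (hρ : ρ.Free)
    (ht : ρ.cl ⊤ = ⊤) (z : A) {ε : ℝ} (hε : 0 < ε) :
    ∃ ρ' : Rep (FreeGroup Λ) A, ρ'.Free ∧ ρ'.cl ⊤ = ⊤ ∧ ρ'.π (of a) = ρ.π (of a) ∧
      ρ'.π (of b) = ρ.π (of b) ∧ n2 (ρ'.π (of x) - ρ.π (of x)) < ε ∧
      ∃ q ∈ ρ'.cl (sub {a, b, x}), n2 (z - q) < ε := by
  classical
  choose σ a1 a2 a3 a4 a5 using fun i : Finset Λ × ℕ =>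
    cap_fin h1 h2 h4 i.1 hρ (show 0 < 1 / ((i.2 : ℝ) + 1) by positivity)
  have t1 : ∀ ε > 0, ∀ᶠ i : Finset Λ × ℕ in atTop, 1 / ((i.2 : ℝ) + 1) < ε := fun ε hε =>
    ((tendsto_one_div_add_atTop_nhds_zero_nat (𝕜 := ℝ)).comp
      (prod_atTop_atTop_eq (α := Finset Λ) (β := ℕ) ▸ tendsto_snd)).eventually (gt_mem_nhds hε)
  let V : Submodule ℂ A :=
    { carrier := {z | ∀ ε > 0, ∀ᶠ i in atTop, ∃ q ∈ (σ i).cl (sub {a, b, x}), n2 (z - q) < ε}
      add_mem' := fun {y z} hy hz ε hε => by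
        filter_upwards [hy _ (half_pos hε), hz _ (half_pos hε)] with i ⟨p, hp, c1⟩ ⟨q, hq, c2⟩
        exact ⟨p + q, add_mem hp hq, by
          rw [add_sub_add_comm]; linarith [n2_add_le (y - p) (z - q)]⟩
      zero_mem' := fun ε hε => .of_forall fun i => ⟨0, zero_mem _, by simpa⟩
      smul_mem' := fun c z hz ε hε => by
        filter_upwards [hz (ε / (‖c‖ + 1)) (by positivity)] with i ⟨p, hp, c1⟩
        refine ⟨c • p, SMulMemClass.smul_mem c hp, ?_⟩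
        rw [lt_div_iff₀ (by positivity)] at c1
        rw [← smul_sub, n2_smul]
        linarith [n2_nonneg (z - p)] }
  have : z ∈ V := by
    refine ρ.cls_le (H := ⊤) (V := V) (fun y z hy hz ε hε => ?_) (fun g _ => ?_)
      (ht ▸ trivial : z ∈ ρ.cl ⊤)
    · obtain ⟨n, hn⟩ := (hz.2.eventually (gt_mem_nhds (half_pos hε))).exists
      filter_upwards [hy n _ (half_pos hε)] with i ⟨p, hp, c1⟩
      exact ⟨p, hp, by linarith [n2_triangle z (y n) p, n2_sub_comm z (y n)]⟩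
    induction g using FreeGroup.induction_on with
    | C1 => exact fun ε hε => .of_forall fun i => ⟨1, one_mem _, by simpa⟩
    | of s =>
      intro ε hε
      filter_upwards [t1 ε hε, eventually_ge_atTop ({s}, 0)] with i c1 c2
      exact (a5 i s (c2.1 (mem_singleton_self s))).imp fun q hq => ⟨hq.1, hq.2.trans c1⟩
    | inv_of s ih =>
      intro ε hε
      filter_upwards [ih trivial ε hε] with i ⟨p, hp, c1⟩
      exact ⟨star p, star_mem hp, by rwa [← ρ.st, ← star_sub, n2_star]⟩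
    | mul g g' ih ih' =>
      intro ε hε
      filter_upwards [ih trivial (ε / 8) (by positivity), ih' trivial _ (half_pos hε)] with i
        ⟨p, hp, c1⟩ ⟨q, hq, c2⟩
      obtain ⟨q', c3, c4, c5⟩ := condexp ((σ i).cl_closed (sub {a, b, x})) (ρ.π g')
      refine ⟨p * q', mul_mem hp c3, (n2_triangle _ (ρ.π g * q') _).trans_lt ?_⟩
      rw [map_mul, ← mul_sub, ← sub_mul, n2_unitary_mul (ρ.uni _)]
      have := (n2_mul_le' _ _).trans (mul_le_mul c1.le (show ‖q'‖ ≤ 4 by linarith [ρ.norm_le g'])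
        (norm_nonneg _) (by positivity))
      linarith [orth_le c3 hq c5]
  obtain ⟨i, c1, c2⟩ := ((t1 ε hε).and (this ε hε)).exists
  exact ⟨σ i, a1 i, (a2 i).trans ht, a3 i a h2.symm (by simp), a3 i b h4.symm (by simp),
    (a4 i).trans c1, c2⟩

lemma inj3 (h1 : b ≠ a) (h2 : x ≠ a) (h4 : x ≠ b) : Function.Injective ![a, b, x] := by
  intro i j h
  fin_cases i <;> fin_cases j <;> simp_all [eq_comm]

lemma map3 (a b x : Λ) : Subgroup.map (FreeGroup.map ![a, b, x]) ⊤ = sub {a, b, x} := by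
  rw [← FreeGroup.closure_range_of, MonoidHom.map_closure, sub]
  congr 1
  simp [← Set.range_comp, Function.comp_def, Set.image_insert_eq, Set.ext_iff, Fin.exists_fin_succ,
    eq_comm]

theorem three [Countable Λ] (h1 : b ≠ a) (h2 : x ≠ a) (h4 : x ≠ b) {ρ : Rep (FreeGroup Λ) A}
    (hρ : ρ.Free) (ht : ρ.cl ⊤ = ⊤) :
    ∃ σ : Rep (FreeGroup (Fin 3)) A, σ.Free ∧ σ.cl ⊤ = ⊤ := by
  classical
  have : Nonempty Λ := ⟨a⟩
  obtain ⟨e, he⟩ := exists_surjective_nat Λ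
  let S := {s : Rep (FreeGroup Λ) A × ℝ // s.1.Free ∧ s.1.cl ⊤ = ⊤ ∧ s.1.π (of a) = ρ.π (of a) ∧
    s.1.π (of b) = ρ.π (of b) ∧ 0 < s.2}
  have key : ∀ (n : ℕ) (s : S), ∃ t : S, n2 (t.1.1.π (of x) - s.1.1.π (of x)) ≤ s.1.2 / 2 ∧
      t.1.2 ≤ s.1.2 / 2 ∧ ∀ ρ' : Rep (FreeGroup Λ) A, (∀ c ∈ ({a, b, x} : Set Λ),
        n2 (t.1.1.π (of c) - ρ'.π (of c)) ≤ t.1.2) →
          ∃ q ∈ ρ'.cl (sub {a, b, x}), n2 (ρ.π (of (e n.unpair.1)) - q) < s.1.2 / 2 := by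
    rintro n ⟨⟨σ, r⟩, a1, a2, a3, a4, a5⟩
    obtain ⟨σ', b1, b2, b3, b4, b5, b6⟩ := cap_top h1 h2 h4 a1 a2 (ρ.π (of (e n.unpair.1)))
      (half_pos a5)
    obtain ⟨r', ⟨r1, r2⟩, r0⟩ := ((((stable b6).and (gt_mem_nhds (half_pos a5))).filter_mono
      nhdsWithin_le_nhds).and (self_mem_nhdsWithin (s := Set.Ioi 0))).exists
    exact ⟨⟨⟨σ', r'⟩, b1, b2, b3.trans a3, b4.trans a4, r0⟩, b5.le, r2.le, r1⟩
  choose f f1 f2 f3 using key
  let s : ℕ → S := Nat.rec ⟨⟨ρ, 1⟩, hρ, ht, rfl, rfl, one_pos⟩ f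
  have hs : ∀ n, s (n + 1) = f n (s n) := fun _ => rfl
  let u := fun n => (s n).1.1.π (of x)
  let r := fun n => (s n).1.2
  have r0 : ∀ n, 0 < r n := fun n => (s n).2.2.2.2.2
  have m1 : ∀ n m, n ≤ m → n2 (u m - u n) + r m ≤ r n := fun n m hm => by
    induction hm with
    | refl => simp
    | @step m _ ih =>
      have e1 : n2 (u (m + 1) - u m) ≤ r m / 2 := f1 m (s m)
      have e2 : r (m + 1) ≤ r m / 2 := f2 m (s m)
      linarith [n2_triangle (u (m + 1)) (u m) (u n)]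
  have m2 : Tendsto r atTop (𝓝 0) := by
    refine squeeze_zero (fun n => (r0 n).le) (fun n => ?_)
      (tendsto_pow_atTop_nhds_zero_of_lt_one (r := (1 / 2 : ℝ)) (by norm_num) (by norm_num))
    induction n with
    | zero => exact le_rfl
    | succ n ih => rw [pow_succ]; linarith [show r (n + 1) ≤ r n / 2 from f2 n (s n)]
  obtain ⟨v, -, hv⟩ := Cmp.complete u 1 (fun n => Rep.norm_le _ _) fun ε hε => by
    obtain ⟨N, hN⟩ := (m2.eventually (gt_mem_nhds (half_pos hε))).exists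
    refine ⟨N, fun m hm n hn => ?_⟩
    linarith [n2_triangle (u m) (u N) (u n), n2_sub_comm (u N) (u n), m1 N m hm,
      m1 N n hn, r0 m, r0 n]
  have v1 : v ∈ unitary A := ⟨(hv.star.mul hv).eq (.const 1) fun n => (Rep.uni _ _).1,
    (hv.mul hv.star).eq (.const 1) fun n => (Rep.uni _ _).2⟩
  have v2 : ∀ n, n2 (v - u n) ≤ r n := fun n => le_of_tendsto (hv.sub (.const _)).n2
    ((eventually_ge_atTop n).mono fun m hm => by linarith [m1 n m hm, r0 m])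
  let ψ : FreeGroup Λ →* unitary A :=
    FreeGroup.lift fun c => if c = x then ⟨v, v1⟩ else ⟨ρ.π (of c), ρ.uni _⟩
  let τ : Rep (FreeGroup Λ) A := ⟨(unitary A).subtype.comp ψ, fun g => by
    simp [← Unitary.star_eq_inv]⟩
  have τ1 : τ.π (of x) = v := by simp [τ, ψ]
  have τ2 : ∀ c ≠ x, τ.π (of c) = ρ.π (of c) := fun c hc => by simp [τ, ψ, hc]
  have c1 : ∀ g ∈ sub {a, b, x}, Conv (fun n => (s n).1.1.π g) (τ.π g) := fun g hg => by
    induction hg using Subgroup.closure_induction with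
    | mem _ hg =>
      obtain ⟨c, rfl | rfl | rfl, rfl⟩ := hg
      · simpa only [fun n => (s n).2.2.2.1, τ2 c h2.symm] using Conv.const _
      · simpa only [fun n => (s n).2.2.2.2.1, τ2 c h4.symm] using Conv.const _
      · exact τ1 ▸ hv
    | one => simpa using Conv.const 1
    | mul g g' _ _ ih ih' => simpa using ih.mul ih'
    | inv g _ ih => simpa only [Rep.st] using ih.star
  have c2 : ∀ g, ρ.π g ∈ τ.cl (sub {a, b, x}) := fun g => by
    induction g using FreeGroup.induction_on with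
    | C1 => simp
    | of c =>
      obtain ⟨k, rfl⟩ := he c
      refine mem_of_near (τ.cl_closed _) fun ε hε => ?_
      obtain ⟨m, hm⟩ := (m2.eventually (gt_mem_nhds hε)).exists
      obtain ⟨q, hq, h⟩ := f3 (Nat.pair k m) (s (Nat.pair k m)) τ (by
        rintro c (h | h | h) <;> rw [h]
        · rw [(f _ _).2.2.2.1, τ2 a h2.symm, sub_self, n2_zero]; exact (r0 (_ + 1)).le
        · rw [(f _ _).2.2.2.2.1, τ2 b h4.symm, sub_self, n2_zero]; exact (r0 (_ + 1)).le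
        · rw [τ1, n2_sub_comm]; exact v2 (_ + 1))
      rw [Nat.unpair_pair] at h
      replace h : n2 (ρ.π (of (e k)) - q) < r (Nat.pair k m) / 2 := h
      have e1 := m1 m _ (Nat.right_le_pair k m)
      have e2 := n2_nonneg (u (Nat.pair k m) - u m)
      have e3 := r0 (Nat.pair k m)
      exact ⟨q, hq, by linarith⟩
    | inv_of c ih => exact ρ.st _ ▸ star_mem ih
    | mul g g' ih ih' => exact map_mul ρ.π g g' ▸ mul_mem ih ih'
  have inj := inj3 h1 h2 h4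
  have e := map3 a b x
  refine ⟨τ.comp (FreeGroup.map ![a, b, x]), fun g hg => ?_, ?_⟩
  · refine tendsto_nhds_unique (c1 _ (e ▸ ⟨g, trivial, rfl⟩)).tr (tendsto_const_nhds.congr fun n => ?_)
    exact ((s n).2.1 _ ((map_ne_one_iff _ (FreeGroup.map_injective inj)).2 hg)).symm
  · rw [← Rep.cl_map, e, eq_top_iff, ← ht]
    exact ρ.cl_le (τ.cl_closed _) fun g _ => c2 g

end Vale.Agent.P086
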