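import Vale.Agent.P085.Main
import Vale.Agent.P086.Top
import Vale.Agent.P086.Defs

/-! The concrete theorem. -/

namespace Vale.Agent.P086

open scoped ComplexConjugate InnerProductSpace BigOperators
open Filter Topology Vale.Agent.P085 ContinuousLinearMapWOT

variable {G Γ : Type}

/-- square summable functions -/
noncomputable abbrev l2 (G : Type) := lp (fun _ : G => ℂ) 2

/-- permutation of coordinates -/
noncomputable def perm (e : G ≃ G) : l2 G →L[ℂ] l2 G :=
  LinearMap.mkContinuous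
    { toFun := fun ξ => ⟨fun h => ξ (e h), memℓp_gen
        (e.summable_iff.2 ((lp.memℓp ξ).summable (by norm_num)))⟩
      map_add' := fun _ _ => rfl
      map_smul' := fun _ _ => rfl } 1 fun ξ => by
      rw [one_mul, lp.norm_eq_tsum_rpow (by norm_num), lp.norm_eq_tsum_rpow (by norm_num)]
      exact le_of_eq (congrArg (· ^ _) (e.tsum_eq fun h => ‖ξ h‖ ^ (2 : ENNReal).toReal))

lemma perm_apply (e : G ≃ G) (ξ : l2 G) (h : G) : perm e ξ h = ξ (e h) := rfl

lemma star_perm (e : G ≃ G) : star (perm e) = perm e.symm := by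
  refine ((ContinuousLinearMap.eq_adjoint_iff _ _).2 fun x y => ?_).symm
  rw [lp.inner_eq_tsum, lp.inner_eq_tsum, ← e.tsum_eq]
  simp [perm_apply]

open Classical in
/-- point mass -/
noncomputable def dl (g : G) : l2 G := lp.single 2 g 1

lemma inner_dl (g : G) (ξ : l2 G) : ⟪dl g, ξ⟫_ℂ = ξ g := by
  classical
  rw [dl, lp.inner_single_left]; simp

open Classical in
lemma dl_apply (g h : G) : dl g h = if h = g then 1 else 0 := by
  simp [dl, lp.single_apply, Pi.single_apply]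

lemma hasSum_dl (ξ : l2 G) : HasSum (fun g => ξ g • dl g) ξ := by
  classical
  simpa only [dl, ← lp.single_smul, smul_eq_mul, mul_one] using lp.hasSum_single (by norm_num) ξ

lemma ext_dl {x y : l2 G →L[ℂ] l2 Γ} (h : ∀ g, x (dl g) = y (dl g)) : x = y := by
  ext1 ξ
  refine ((hasSum_dl ξ).mapL x).unique ?_
  simpa only [map_smul, h] using (hasSum_dl ξ).mapL y

variable [Group G] [Group Γ]

/-- left translation -/
noncomputable def lam (g : G) : l2 G →L[ℂ] l2 G := perm (Equiv.mulLeft g⁻¹)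

/-- the group von Neumann algebra -/
noncomputable def L (G : Type) [Group G] : StarSubalgebra ℂ (l2 G →L[ℂ] l2 G) :=
  StarSubalgebra.centralizer ℂ
    (StarSubalgebra.centralizer ℂ (Set.range (lam : G → l2 G →L[ℂ] l2 G)) : Set (l2 G →L[ℂ] l2 G))

lemma lam_apply (g : G) (ξ : l2 G) (h : G) : lam g ξ h = ξ (g⁻¹ * h) := rfl

lemma star_lam (g : G) : star (lam g) = lam g⁻¹ :=
  (star_perm (Equiv.mulLeft g⁻¹)).trans rfl

lemma lam_dl (g h : G) : lam g (dl h) = dl (g * h) := by
  ext k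
  rw [lam_apply, dl_apply, dl_apply]
  classical
  convert if_congr inv_mul_eq_iff_eq_mul rfl rfl

lemma coe_L : (L G : Set (l2 G →L[ℂ] l2 G)) = (Set.range lam).centralizer.centralizer := by
  rw [L, StarSubalgebra.coe_centralizer_centralizer, Set.union_eq_left.2]
  rintro x ⟨g, hg⟩
  exact ⟨g⁻¹, by rw [← star_lam, hg, star_star]⟩

/-- the group von Neumann algebra, bundled -/
noncomputable def vn (G : Type) [Group G] : VonNeumannAlgebra (l2 G) where
  toStarSubalgebra := L G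
  centralizer_centralizer' := by
    change Set.centralizer (Set.centralizer (L G : Set (l2 G →L[ℂ] l2 G))) = L G
    rw [coe_L, Set.centralizer_centralizer_centralizer]

lemma apply_dl {x : l2 G →L[ℂ] l2 G} (hx : x ∈ L G) (g h : G) :
    x (dl g) h = x (dl 1) (h * g⁻¹) := by
  have h1 : perm (Equiv.mulRight g⁻¹) * x = x * perm (Equiv.mulRight g⁻¹) := by
    rw [← SetLike.mem_coe, coe_L] at hx
    refine hx _ ?_
    rintro _ ⟨k, rfl⟩
    ext ξ l
    exact congrArg ξ (mul_assoc _ _ _)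
  have h2 : perm (Equiv.mulRight g⁻¹) (dl 1) = dl g := by
    ext k
    rw [perm_apply, dl_apply, dl_apply, Equiv.coe_mulRight]
    classical
    convert if_congr mul_inv_eq_one rfl rfl
  rw [← h2, ← mul_apply_eq_comp, ← h1]
  rfl

/-- the canonical trace -/
noncomputable def tau (G : Type) [Group G] : (vn G).toStarSubalgebra →ₗ[ℂ] ℂ where
  toFun x := ⟪dl 1, x.1 (dl 1)⟫_ℂ
  map_add' x y := by simp
  map_smul' c x := by simp

lemma tau_mul (x y : (vn G).toStarSubalgebra) :
    tau G (star x * y) = ⟪x.1 (dl 1), y.1 (dl 1)⟫_ℂ :=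
  ContinuousLinearMap.adjoint_inner_right x.1 (dl 1) (y.1 (dl 1))

lemma tau_mul' (x y : (vn G).toStarSubalgebra) :
    tau G (x * y) = ∑' g, x.1 (dl 1) g⁻¹ * y.1 (dl 1) g := by
  rw [← star_star x, tau_mul, lp.inner_eq_tsum, star_star]
  refine tsum_congr fun g => ?_
  rw [RCLike.inner_apply, mul_comm, ← inner_dl, inner_conj_symm]
  congr 1
  refine (ContinuousLinearMap.adjoint_inner_left _ _ _).trans ?_
  rw [inner_dl, apply_dl x.2, one_mul]

lemma tau_trace (G : Type) [Group G] : IsFaithfulNormalTrace (vn G) (tau G) where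
  unital := (inner_dl _ _).trans (by simp [dl_apply])
  positive x := by
    rw [tau_mul]
    exact ⟨inner_self_nonneg (𝕜 := ℂ), inner_self_im (𝕜 := ℂ) _⟩
  faithful x hx := by
    rw [tau_mul, inner_self_eq_zero] at hx
    refine Subtype.ext (ext_dl fun g => lp.ext (funext fun h => ?_))
    rw [apply_dl x.2, hx]; rfl
  tracial x y := by
    rw [tau_mul', tau_mul', ← (Equiv.inv G).tsum_eq]
    simp [mul_comm]
  normal l y _ _ h := tendsto_iff_forall_inner_apply_tendsto.1 h _ _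

noncomputable instance : TrA (vn G).toStarSubalgebra := (tau_trace G).trA

instance : Cmp (vn G).toStarSubalgebra :=
  ⟨fun _ r hx hc => ((tau_trace G).lim hx hc).imp fun _ hy => ⟨hy.1, ⟨r, hx⟩, hy.2.1⟩⟩

lemma n2_vn (x : (vn G).toStarSubalgebra) : n2 x = ‖x.1 (dl 1)‖ := by
  rw [← sq_eq_sq₀ (n2_nonneg _) (norm_nonneg _), n2_sq, ← inner_self_eq_norm_sq (𝕜 := ℂ)]
  exact congrArg _ (tau_mul x x)

/-- the left regular representation -/
noncomputable def reg (G : Type) [Group G] : Rep G (vn G).toStarSubalgebra where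
  π :=
    { toFun := fun g => ⟨lam g, show lam g ∈ (L G : Set (l2 G →L[ℂ] l2 G)) from
        coe_L (G := G) ▸ Set.subset_centralizer_centralizer ⟨g, rfl⟩⟩
      map_one' := Subtype.ext (ext_dl fun h => by simp [lam_dl])
      map_mul' := fun g g' => Subtype.ext (ext_dl fun h => by simp [lam_dl, mul_assoc]) }
  st g := Subtype.ext (star_lam g)

lemma reg_free : (reg G).Free := fun g hg => (inner_dl _ _).trans (by
  change lam g (dl 1) 1 = 0
  simp [lam_dl, dl_apply, hg.symm])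

lemma reg_top : (reg G).cl ⊤ = ⊤ := by
  refine eq_top_iff.2 fun y _ => mem_of_near ((reg G).cl_closed _) fun ε hε => ?_
  obtain ⟨s, hs⟩ := (Metric.tendsto_nhds.1 (hasSum_dl (y.1 (dl 1))) ε hε).exists
  refine ⟨∑ g ∈ s, y.1 (dl 1) g • (reg G).π g, sum_mem fun g _ =>
    SMulMemClass.smul_mem _ ((reg G).mem_cl trivial), ?_⟩
  rw [dist_comm, dist_eq_norm] at hs
  rw [n2_vn]
  refine le_of_eq_of_le (congrArg _ ?_) hs.le
  simp [reg, lam_dl]

lemma wotClosed_cent {H : Type*} [NormedAddCommGroup H] [InnerProductSpace ℂ H] [CompleteSpace H]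
    (S : Set (H →L[ℂ] H)) : WOTClosed S.centralizer := by
  rw [WOTClosed]
  convert Set.isClosed_centralizer (ofCLM '' S) using 1
  ext z
  obtain ⟨z, rfl⟩ := ofCLM_surjective z
  rw [ofCLM_injective.mem_set_image, Set.mem_centralizer_iff, Set.mem_centralizer_iff,
    Set.forall_mem_image]
  simp only [← ofCLM_mul, ofCLM_injective.eq_iff]

lemma cent_map {R S : Type*} [Mul R] [Mul S] (e : R ≃* S) (s : Set R) :
    e '' s.centralizer = (e '' s).centralizer := by
  ext y
  obtain ⟨y, rfl⟩ := e.surjective y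
  simp [Set.mem_centralizer_iff, ← map_mul]

lemma comm_closed (T : l2 Γ →L[ℂ] l2 Γ) :
    CClosed {x : (vn Γ).toStarSubalgebra | T * x.1 = x.1 * T} := fun z w hz hw => by
  obtain ⟨C, hC⟩ := hw.1
  obtain ⟨w', -, h1, h2⟩ := (tau_trace Γ).lim hC (Metric.cauchySeq_iff.1 hw.tendsto.cauchySeq ·
    · |>.imp fun N hN m hm n hn => by simpa [dist_eq_norm, n2] using hN m hm n hn)
  obtain rfl : w = w' := hw.unique ⟨hw.1, h1⟩
  exact h2 _ (wotClosed_cent {T}) (fun n => by rintro _ rfl; exact hz n) T rfl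

lemma cent_eq (σ : Rep G (vn Γ).toStarSubalgebra) (h2 : σ.cl ⊤ = ⊤) :
    (Set.range fun g => (σ.π g).1).centralizer = (L Γ : Set (l2 Γ →L[ℂ] l2 Γ)).centralizer := by
  refine (Set.centralizer_subset (by rintro _ ⟨g, rfl⟩; exact (σ.π g).2)).antisymm'
    fun T hT y hy => ?_
  let V : Submodule ℂ (vn Γ).toStarSubalgebra :=
    { carrier := {x | T * x.1 = x.1 * T}
      add_mem' := fun {a b} ha hb => Commute.add_right ha hb
      zero_mem' := Commute.zero_right T
      smul_mem' := fun c a ha => Commute.smul_right ha c }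
  have : (⟨y, hy⟩ : (vn Γ).toStarSubalgebra) ∈ V := σ.cls_le (H := ⊤) (V := V) (comm_closed T)
    (fun g _ => (hT _ ⟨g, rfl⟩).symm) (h2 ▸ trivial : _ ∈ σ.cl ⊤)
  exact this.symm

lemma restr {R S : Type*} [Ring R] [Ring S] [StarRing R] [StarRing S] [Algebra ℂ R] [Algebra ℂ S]
    [StarModule ℂ R] [StarModule ℂ S] (Φ : R ≃⋆ₐ[ℂ] S) {P : StarSubalgebra ℂ R}
    {Q : StarSubalgebra ℂ S} (h : Φ '' P = Q) : Nonempty (P ≃⋆ₐ[ℂ] Q) := by
  have h6 : ∀ x, x ∈ P ↔ Φ x ∈ Q := fun x => by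
    rw [← SetLike.mem_coe (p := Q), ← h, (EquivLike.injective Φ).mem_set_image, SetLike.mem_coe]
  exact ⟨{
    toFun := fun x => ⟨Φ x, (h6 _).1 x.2⟩
    invFun := fun y => ⟨Φ.symm y, (h6 _).2 (by simp)⟩
    left_inv := fun x => by simp
    right_inv := fun x => by simp
    map_mul' := fun x y => Subtype.ext (map_mul Φ x.1 y.1)
    map_add' := fun x y => Subtype.ext (map_add Φ x.1 y.1)
    map_star' := fun x => Subtype.ext (map_star Φ x.1)
    map_smul' := fun c x => Subtype.ext (map_smul Φ c x.1) }⟩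

theorem iso (σ : Rep G (vn Γ).toStarSubalgebra) (h1 : σ.Free) (h2 : σ.cl ⊤ = ⊤) :
    Nonempty (L Γ ≃⋆ₐ[ℂ] L G) := by
  classical
  let v : G → l2 Γ := fun g => (σ.π g).1 (dl 1)
  have hv : Orthonormal ℂ v := orthonormal_iff_ite.2 fun g h => by
    rw [show ⟪v g, v h⟫_ℂ = _ from (tau_mul _ _).symm, σ.st, ← map_mul]
    split_ifs with e
    · simpa [e] using (tau_trace Γ).unital
    · exact h1 _ (mt inv_mul_eq_one.1 e)
  have hd : ⊤ ≤ (Submodule.span ℂ (Set.range v)).topologicalClosure := fun ξ _ => by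
    refine (Submodule.isClosed_topologicalClosure _).mem_of_tendsto (hasSum_dl ξ)
      (.of_forall fun s => sum_mem fun γ _ => Submodule.smul_mem _ _ ?_)
    refine Metric.mem_closure_iff.2 fun ε hε => ?_
    obtain ⟨q, hq, h⟩ := σ.cl_near (h2 ▸ trivial : (reg Γ).π γ ∈ σ.cl ⊤) hε
    refine ⟨q.1 (dl 1), ?_, by simpa [n2_vn, dist_eq_norm, reg, lam_dl] using h⟩
    clear h
    induction hq using Submodule.span_induction with
    | mem _ h => obtain ⟨g, -, rfl⟩ := h; exact Submodule.subset_span ⟨g, rfl⟩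
    | zero => exact zero_mem _
    | add _ _ _ _ a b => exact add_mem a b
    | smul c _ _ a => exact Submodule.smul_mem _ c a
  let b := HilbertBasis.mk hv hd
  have hb : ∀ g, b.repr (v g) = dl g := fun g => by
    rw [← HilbertBasis.coe_mk hv hd]; exact b.repr_self g
  let Φ := b.repr.conjStarAlgEquiv
  have h3 : ∀ g, Φ (σ.π g).1 = lam g := fun g => ext_dl fun h => by
    rw [lam_dl, ← hb, ← hb, LinearIsometryEquiv.conjStarAlgEquiv_apply_apply,
      LinearIsometryEquiv.symm_apply_apply]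
    simp [v]
  have h4 := cent_eq σ h2
  have h5 : Φ '' L Γ = L G := by
    rw [show (L Γ : Set (l2 Γ →L[ℂ] l2 Γ)) = _ from (vn Γ).centralizer_centralizer.symm, coe_L]
    change Φ.toMulEquiv '' (L Γ : Set (l2 Γ →L[ℂ] l2 Γ)).centralizer.centralizer = _
    rw [← h4, cent_map, cent_map, ← Set.range_comp]
    congr 3
    exact funext h3
  exact restr Φ h5

theorem iso3 {n : ℕ∞} (hn : 3 ≤ n) : Nonempty (L (F n) ≃⋆ₐ[ℂ] L (FreeGroup (Fin 3))) := by
  obtain ⟨σ, h1, h2⟩ := three (Λ := {i : ℕ // (i : ℕ∞) < n})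
    (a := ⟨0, lt_of_lt_of_le (by norm_num) hn⟩) (b := ⟨1, lt_of_lt_of_le (by norm_num) hn⟩)
    (x := ⟨2, lt_of_lt_of_le (by norm_num) hn⟩) (by simp) (by simp) (by simp) reg_free reg_top
  exact iso σ h1 h2

lemma scent_map {R S : Type*} [Ring R] [Ring S] [StarRing R] [StarRing S] [Algebra ℂ R]
    [Algebra ℂ S] [StarModule ℂ R] [StarModule ℂ S] (e : R ≃⋆ₐ[ℂ] S) (s : Set R) :
    e '' StarSubalgebra.centralizer ℂ s = StarSubalgebra.centralizer ℂ (e '' s) := by
  ext y
  obtain ⟨y, rfl⟩ := EquivLike.surjective e y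
  simp [(EquivLike.injective e).mem_set_image, StarSubalgebra.mem_centralizer_iff, ← map_star,
    ← map_mul, -StarSubalgebra.coe_centralizer]

theorem iso0 {H : Type} [NormedAddCommGroup H] [InnerProductSpace ℂ H] [CompleteSpace H]
    (δ : HilbertBasis G ℂ H) : Nonempty (groupVN δ ≃⋆ₐ[ℂ] L G) := by
  classical
  have hb : ∀ g, δ.repr (δ g) = dl g := fun g => δ.repr_self g
  refine restr δ.repr.conjStarAlgEquiv ?_
  rw [groupVN, L, scent_map, scent_map]
  congr 4
  ext T
  constructor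
  · rintro ⟨T, ⟨g, hg⟩, rfl⟩
    refine ⟨g, ext_dl fun h => ?_⟩
    rw [lam_dl, ← hb, ← hb, LinearIsometryEquiv.conjStarAlgEquiv_apply_apply,
      LinearIsometryEquiv.symm_apply_apply, hg]
  · rintro ⟨g, rfl⟩
    refine ⟨δ.repr.conjStarAlgEquiv.symm (lam g), ⟨g, fun h => ?_⟩, StarAlgEquiv.apply_symm_apply ..⟩
    rw [LinearIsometryEquiv.symm_conjStarAlgEquiv_apply_apply, hb, lam_dl, ← hb,
      LinearIsometryEquiv.symm_apply_apply]

theorem main {m n : ℕ∞} (hm : 3 ≤ m) (hn : 3 ≤ n) {H K : Type}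
    [NormedAddCommGroup H] [InnerProductSpace ℂ H] [CompleteSpace H]
    [NormedAddCommGroup K] [InnerProductSpace ℂ K] [CompleteSpace K]
    (δ : HilbertBasis (F m) ℂ H) (ε : HilbertBasis (F n) ℂ K) :
    Nonempty (groupVN δ ≃⋆ₐ[ℂ] groupVN ε) :=
  ⟨((iso0 δ).some.trans (iso3 hm).some).trans ((iso0 ε).some.trans (iso3 hn).some).symm⟩

end Vale.Agent.P086
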